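import Vale.Agent.P196.T1

namespace Vale.Agent.P196

open Function

theorem code_of_ncard {X : Type*} {W : Set X} (hW : W.Finite) {C : ℕ} (hC : W.ncard ≤ C) :
    ∃ c : X → Fin (C + 1), ∀ y ∈ W, ∀ y' ∈ W, c y = c y' → y = y' := by
  classical
  set T := hW.toFinset with hT
  have hcard : T.card ≤ C := by
    rw [← Set.ncard_coe_finset, hT, hW.coe_toFinset]
    exact hC
  refine ⟨fun y => if h : y ∈ T then
    ⟨(T.equivFin ⟨y, h⟩).1, by
      have := (T.equivFin ⟨y, h⟩).2
      omega⟩ else 0, ?_⟩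
  intro y hy y' hy' h
  have h1 : y ∈ T := hW.mem_toFinset.mpr hy
  have h2 : y' ∈ T := hW.mem_toFinset.mpr hy'
  simp only [dif_pos h1, dif_pos h2, Fin.mk.injEq] at h
  exact congrArg Subtype.val (T.equivFin.injective (Fin.ext h))

theorem bounded_boundary {G : Type*} [Group G] [Infinite G] [IsSimpleGroup G]
    [Group.IsFinitelyPresented G] {X : Type*} [MulAction G X] (b : G → ℕ)
    (hex : ∀ E : Finset X, ∃ F : Finset X, E ⊆ F ∧ ∀ g : G, {y | y ∈ F ∧ g • y ∉ F}.ncard ≤ b g)
    (x : X) (g : G) : g • x = x := by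
  classical
  obtain ⟨S, K, hsym, hS, hK, hret⟩ := retract G
  have hRP : RP S K X := fun M P N => hret X M P N
  set C := (AA S (K + 1)).ncard * ∑ s ∈ S, b s with hC
  -- the next set
  have hnext : ∀ F : Finset X, ∃ F' : Finset X,
      (∀ g : G, {y | y ∈ F' ∧ g • y ∉ F'}.ncard ≤ b g) ∧ F ⊆ F' ∧
      (∀ y ∈ Nr S (F : Set X) (K + 1), y ∈ F') ∧
      ∀ (H : Finset X), F' ⊆ H → ∀ y ∈ Nr S (H : Set X) (K + 1),
        y ∉ F ∧ y ∉ Nr S (F : Set X) (K + 1) := by
    intro F
    set E1 : Finset X := F ∪ (Nr_finite (S := S) F.finite_toSet (K + 1)).toFinset with hE1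
    set E2 : Finset X := (((AA_finite S (K + 1)).toFinset ×ˢ E1).image
      (fun p : G × X => p.1⁻¹ • p.2)) with hE2
    set E3 : Finset X := ((S ×ˢ E2).image (fun p : G × X => p.1 • p.2)) with hE3
    obtain ⟨F', hF', hF'b⟩ := hex (E1 ∪ E3)
    refine ⟨F', hF'b, ?_, ?_, ?_⟩
    · exact (Finset.subset_union_left.trans Finset.subset_union_left).trans hF'
    · intro y hy
      apply hF'
      rw [Finset.mem_union, hE1, Finset.mem_union, Set.Finite.mem_toFinset]
      exact Or.inl (Or.inr hy)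
    · intro H hH y hy
      obtain ⟨z, hz, a, ha, rfl⟩ := hy
      obtain ⟨hzH, s, hs, hsz⟩ := hz
      have key : a • z ∉ E1 := by
        intro hin
        have h1 : z ∈ E2 := by
          rw [hE2, Finset.mem_image]
          refine ⟨(a, a • z), ?_, ?_⟩
          · rw [Finset.mem_product, Set.Finite.mem_toFinset]
            exact ⟨ha, hin⟩
          · simp
        have h2 : s • z ∈ E3 := by
          rw [hE3, Finset.mem_image]
          exact ⟨(s, z), Finset.mem_product.mpr ⟨hs, h1⟩, rfl⟩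
        exact hsz (hH (hF' (Finset.mem_union_right _ h2)))
      rw [hE1, Finset.mem_union, Set.Finite.mem_toFinset] at key
      push Not at key
      exact key
  choose nx hnx1 hnx2 hnx3 hnx4 using hnext
  obtain ⟨F0, hF0, hF0b⟩ := hex {x}
  let Fs : ℕ → Finset X := fun n => nx^[n] F0
  have hFs : ∀ n, Fs (n + 1) = nx (Fs n) := fun n => iterate_succ_apply' nx n F0
  have hFb : ∀ n, ∀ g : G, {y | y ∈ Fs n ∧ g • y ∉ Fs n}.ncard ≤ b g := by
    intro n
    cases n with
    | zero => exact hF0b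
    | succ n => rw [hFs]; exact hnx1 _
  have hmono : Monotone Fs := monotone_nat_of_le_succ (fun n => by rw [hFs]; exact hnx2 _)
  have hWC : ∀ n, (Nr S (Fs n : Set X) (K + 1)).ncard ≤ C := by
    intro n
    refine (Nr_ncard (Fs n).finite_toSet (K + 1)).trans (Nat.mul_le_mul_left _ ?_)
    exact bd_ncard (fun g => hFb n g)
  choose c hc using fun n => code_of_ncard (Nr_finite (S := S) (Fs n).finite_toSet (K + 1)) (hWC n)
  let ty : ℕ → Set (Fin (C + 1)) × Set (Fin (C + 1)) × (S → Set (Fin (C + 1) × Fin (C + 1))) :=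
    fun n => ({p | ∃ y ∈ Nr S (Fs n : Set X) (K + 1), c n y = p},
      {p | ∃ y ∈ Nr S (Fs n : Set X) (K + 1), c n y = p ∧ y ∈ (Fs n : Set X)},
      fun s => {p | ∃ y ∈ Nr S (Fs n : Set X) (K + 1), s.1 • y ∈ Nr S (Fs n : Set X) (K + 1) ∧
        c n y = p.1 ∧ c n (s.1 • y) = p.2})
  obtain ⟨T, hT⟩ := pigeon (α := Set (Fin (C + 1)) × Set (Fin (C + 1)) ×
    (S → Set (Fin (C + 1) × Fin (C + 1))))
  obtain ⟨i, j, hij, -, he⟩ := hT ty
  have he1 := congrArg Prod.fst he
  have he2 := congrArg (fun p => p.2.1) he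
  have he3 := congrArg (fun p => p.2.2) he
  have hxi : x ∈ (Fs i : Set X) :=
    hmono (Nat.zero_le i) (hF0 (Finset.mem_singleton_self x))
  have hsub : Fs (i + 1) ⊆ Fs j := hmono hij
  have hfix := glue1 (F := (Fs i : Set X)) (F' := (Fs j : Set X)) (c := c i) (c' := c j) hRP hK hsym
    (Fs j).finite_toSet (fun y hy => hmono hij.le hy)
    (fun y hy => hsub (by rw [hFs]; exact hnx3 _ y hy))
    (fun y hy => hnx4 (Fs i) (Fs j) (by rw [← hFs]; exact hsub) y hy)
    (hc i) (hc j) he1 he2 (fun s hs => congrFun he3 ⟨s, hs⟩)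
  have hle : Subgroup.closure (S : Set G) ≤ MulAction.stabilizer G x := by
    rw [Subgroup.closure_le]
    intro s hs
    exact hfix x hxi s hs
  rw [hS] at hle
  exact hle (Subgroup.mem_top g)

end Vale.Agent.P196
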