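import Vale.Agent.P196.VGroup
import Vale.Agent.P196.T1Final

namespace Vale.Agent.P196

open Function

def sumAct (G X V : Type*) [Group G] [MulAction G X] : MulAction G (X ⊕ V) where
  smul g z := Sum.map (fun x => g • x) id z
  one_smul z := by
    cases z with
    | inl x => exact congrArg Sum.inl (one_smul G x)
    | inr v => rfl
  mul_smul g h z := by
    cases z with
    | inl x => exact congrArg Sum.inl (mul_smul g h x)
    | inr v => rfl

def sumMap {X V : Type*} (π : X → V) (τ : V → V) : X ⊕ V → X ⊕ V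
  | Sum.inl x => Sum.inr (π x)
  | Sum.inr v => Sum.inr (τ v)

theorem sumMap_inr {X V : Type*} (π : X → V) (τ : V → V) (n : ℕ) (v : V) :
    (sumMap π τ)^[n] (Sum.inr v) = Sum.inr (τ^[n] v) := by
  induction n generalizing v with
  | zero => rfl
  | succ n ih => rw [iterate_succ_apply, iterate_succ_apply]; exact ih (τ v)

theorem sumMap_inl {X V : Type*} (π : X → V) (τ : V → V) (n : ℕ) (x : X) :
    (sumMap π τ)^[n + 1] (Sum.inl x) = Sum.inr (τ^[n] (π x)) := by
  rw [iterate_succ_apply]
  exact sumMap_inr π τ n (π x)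

theorem cover_fixed {G : Type*} [Group G] [Infinite G] [IsSimpleGroup G]
    [Group.IsFinitelyPresented G] (hG : Amenable G) {X V : Type*} [MulAction G X] (π : X → V)
    (τ : V → V) (c d : ℕ) (hc : ∀ v, (π ⁻¹' {v}).encard ≤ c) (hd : ∀ v, (τ ⁻¹' {v}).encard ≤ d)
    (hdisp : ∀ g : G, ∃ D : ℕ, ∀ x : X, ∃ i ≤ D, ∃ j ≤ D, τ^[i] (π x) = τ^[j] (π (g • x)))
    (x : X) (hx : ∀ m n : ℕ, τ^[m] (π x) = τ^[n] (π x) → m = n) (g : G) : g • x = x := by
  classical
  let _ : MulAction G (X ⊕ V) := sumAct G X V
  have h := aperiodic_fixed (G := G) hG (X := X ⊕ V) (sumMap π τ) (c + d) ?_ ?_ (Sum.inl x) ?_ g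
  · exact Sum.inl_injective h
  · intro z
    cases z with
    | inl y =>
      refine ⟨∅, by simp, ?_⟩
      intro w hw
      cases w with
      | inl w => simp [sumMap] at hw
      | inr w => simp [sumMap] at hw
    | inr v =>
      obtain ⟨T1, h1, h1'⟩ := encard_finset (hc v)
      obtain ⟨T2, h2, h2'⟩ := encard_finset (hd v)
      refine ⟨T1.image Sum.inl ∪ T2.image Sum.inr, ?_, ?_⟩
      · refine (Finset.card_union_le _ _).trans ?_
        exact add_le_add (Finset.card_image_le.trans h1) (Finset.card_image_le.trans h2)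
      · intro w hw
        rw [Finset.mem_union, Finset.mem_image, Finset.mem_image]
        cases w with
        | inl w => exact Or.inl ⟨w, h1' w (Sum.inr_injective hw), rfl⟩
        | inr w => exact Or.inr ⟨w, h2' w (Sum.inr_injective hw), rfl⟩
  · intro k
    obtain ⟨D, hD⟩ := hdisp k
    refine ⟨D + 1, fun z => ?_⟩
    cases z with
    | inl y =>
      obtain ⟨i, hi, j, hj, e⟩ := hD y
      refine ⟨i + 1, by omega, j + 1, by omega, ?_⟩
      have hk : k • (Sum.inl y : X ⊕ V) = Sum.inl (k • y) := rfl
      rw [hk, sumMap_inl, sumMap_inl, e]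
    | inr v => exact ⟨0, Nat.zero_le _, 0, Nat.zero_le _, rfl⟩
  · intro m n hmn
    cases m with
    | zero =>
      cases n with
      | zero => rfl
      | succ n =>
        rw [sumMap_inl] at hmn
        simp at hmn
    | succ m =>
      cases n with
      | zero =>
        rw [sumMap_inl] at hmn
        simp at hmn
      | succ n =>
        rw [sumMap_inl, sumMap_inl] at hmn
        rw [hx m n (Sum.inr_injective hmn)]

end Vale.Agent.P196
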