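import Mathlib

namespace Vale.Agent.P196

def Amenable (G : Type*) [Group G] : Prop :=
  ∀ (K : Finset G) (ε : ℝ), 0 < ε → ∃ D : Finset G, D.Nonempty ∧
    ∀ g ∈ K, ((symmDiff ((fun h => g * h) '' (D : Set G)) (D : Set G)).ncard : ℝ) < ε * D.card

def PrefixReplacement {d : ℕ} (f : (ℕ → Fin d) → (ℕ → Fin d)) : Prop :=
  ∀ x, ∃ i j, ∀ y, (∀ t < i, y t = x t) → (∀ t < j, f y t = f x t) ∧ ∀ t, f y (j + t) = y (i + t)

end Vale.Agent.P196
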