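import Vale.Agent.P196.Defs

namespace Vale.Agent.P196

theorem folner_false {G X : Type*} [Group G] [MulAction G X] (hG : Amenable G) (x : X)
    (S : Finset G) (c : ℕ)
    (h : ∀ F B : Finset X, (∀ y ∈ F, ∃ g : G, y = g • x) →
      (∀ y ∈ F, ∀ s ∈ S, s • y ∉ F → y ∈ B) → F.card ≤ c * B.card) : False := by
  classical
  obtain ⟨D, hD, hDS⟩ := hG S (1 / (c * S.card + 1)) (by positivity)
  set I : Finset X := D.image (fun g => g • x) with hI
  let f : X → ℕ := fun y => (D.filter (fun g => g • x = y)).card
  have hf0 : ∀ y, y ∉ I → f y = 0 := by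
    intro y hy
    rw [Finset.card_eq_zero, Finset.filter_eq_empty_iff]
    intro g hg h'
    exact hy (Finset.mem_image.mpr ⟨g, hg, h'⟩)
  have hfD : ∀ y, f y ≤ D.card := fun y => Finset.card_filter_le _ _
  let F : ℕ → Finset X := fun k => I.filter (fun y => k < f y)
  have hmemF : ∀ k y, y ∈ F k ↔ k < f y := by
    intro k y
    simp only [F, Finset.mem_filter, and_iff_right_iff_imp]
    intro hk
    by_contra hy
    rw [hf0 y hy] at hk
    omega
  have hFk : ∀ k, (F k).card ≤ c * ((F k).filter (fun y => ∃ s ∈ S, s • y ∉ F k)).card := by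
    intro k
    apply h
    · intro y hy
      have hy' : y ∈ I := (Finset.mem_filter.mp hy).1
      obtain ⟨g, -, hg⟩ := Finset.mem_image.mp hy'
      exact ⟨g, hg.symm⟩
    · intro y hy s hs hsy
      exact Finset.mem_filter.mpr ⟨hy, s, hs, hsy⟩
  have hsum1 : ∑ k ∈ Finset.range D.card, (F k).card = D.card := by
    have h1 : ∀ k, (F k).card = ∑ y ∈ I, if k < f y then 1 else 0 := by
      intro k
      simp only [F, Finset.card_filter]
    simp only [h1]
    rw [Finset.sum_comm]
    refine Eq.trans ?_ (Finset.card_eq_sum_card_image (fun g => g • x) D).symm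
    apply Finset.sum_congr rfl
    intro y _
    rw [← Finset.card_filter]
    have h2 : (Finset.range D.card).filter (fun k => k < f y) = Finset.range (f y) := by
      ext k
      simp only [Finset.mem_filter, Finset.mem_range]
      have := hfD y
      omega
    rw [h2, Finset.card_range]
  have hsum2 : ∀ s ∈ S, ∑ k ∈ Finset.range D.card, (I.filter (fun y => k < f y ∧ f (s • y) ≤ k)).card
      ≤ (D.filter (fun g => s * g ∉ D)).card := by
    intro s _
    have h1 : ∀ k, (I.filter (fun y => k < f y ∧ f (s • y) ≤ k)).card =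
        ∑ y ∈ I, if k < f y ∧ f (s • y) ≤ k then 1 else 0 := by
      intro k
      simp only [Finset.card_filter]
    simp only [h1]
    rw [Finset.sum_comm]
    have h2 : (D.filter (fun g => s * g ∉ D)).card =
        ∑ y ∈ I, ((D.filter (fun g => s * g ∉ D)).filter (fun g => g • x = y)).card := by
      apply Finset.card_eq_sum_card_fiberwise
      intro g hg
      rw [Finset.mem_coe, Finset.mem_filter] at hg
      exact Finset.mem_coe.mpr (Finset.mem_image.mpr ⟨g, hg.1, rfl⟩)
    rw [h2]
    apply Finset.sum_le_sum
    intro y _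
    rw [← Finset.card_filter]
    have h3 : (Finset.range D.card).filter (fun k => k < f y ∧ f (s • y) ≤ k) ⊆
        Finset.Ico (f (s • y)) (f y) := by
      intro k hk
      rw [Finset.mem_filter] at hk
      rw [Finset.mem_Ico]
      omega
    refine (Finset.card_le_card h3).trans ?_
    rw [Nat.card_Ico]
    have h4 : f y ≤ f (s • y) +
        ((D.filter (fun g => s * g ∉ D)).filter (fun g => g • x = y)).card := by
      have h5 : f y = ((D.filter (fun g => g • x = y)).filter (fun g => s * g ∈ D)).card +
          ((D.filter (fun g => g • x = y)).filter (fun g => ¬ s * g ∈ D)).card :=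
        (Finset.card_filter_add_card_filter_not _).symm
      have h6 : ((D.filter (fun g => g • x = y)).filter (fun g => s * g ∈ D)).card ≤ f (s • y) := by
        apply Finset.card_le_card_of_injOn (fun g => s * g)
        · intro g hg
          rw [Finset.mem_coe, Finset.mem_filter, Finset.mem_filter] at hg
          rw [Finset.mem_coe, Finset.mem_filter]
          refine ⟨hg.2, ?_⟩
          rw [mul_smul, hg.1.2]
        · intro a _ b _ hab
          exact mul_left_cancel hab
      have h7 : (D.filter (fun g => g • x = y)).filter (fun g => ¬ s * g ∈ D) =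
          (D.filter (fun g => s * g ∉ D)).filter (fun g => g • x = y) := by
        rw [Finset.filter_filter, Finset.filter_filter]
        apply Finset.filter_congr
        intro g _
        exact and_comm
      rw [h7] at h5
      omega
    omega
  have hbd : ∀ k, ((F k).filter (fun y => ∃ s ∈ S, s • y ∉ F k)).card ≤
      ∑ s ∈ S, (I.filter (fun y => k < f y ∧ f (s • y) ≤ k)).card := by
    intro k
    have h1 : (F k).filter (fun y => ∃ s ∈ S, s • y ∉ F k) ⊆
        S.biUnion (fun s => I.filter (fun y => k < f y ∧ f (s • y) ≤ k)) := by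
      intro y hy
      rw [Finset.mem_filter] at hy
      obtain ⟨hyF, s, hs, hsy⟩ := hy
      rw [Finset.mem_biUnion]
      refine ⟨s, hs, ?_⟩
      rw [Finset.mem_filter]
      refine ⟨(Finset.mem_filter.mp hyF).1, (hmemF k y).mp hyF, ?_⟩
      rw [hmemF] at hsy
      omega
    exact (Finset.card_le_card h1).trans Finset.card_biUnion_le
  have hDs : ∀ s ∈ S, ((D.filter (fun g => s * g ∉ D)).card : ℝ) ≤
      1 / (c * S.card + 1) * D.card := by
    intro s hs
    refine le_trans ?_ (hDS s hs).le
    have hfin : (symmDiff ((fun h => s * h) '' (D : Set G)) (D : Set G)).Finite :=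
      ((D.finite_toSet.image _).union D.finite_toSet).subset symmDiff_le_sup
    have h1 : ((D.filter (fun g => s * g ∉ D)).image (fun g => s * g) : Finset G).card =
        (D.filter (fun g => s * g ∉ D)).card :=
      Finset.card_image_of_injective _ (mul_right_injective s)
    rw [← h1, ← Set.ncard_coe_finset]
    have h2 : (((D.filter (fun g => s * g ∉ D)).image (fun g => s * g) : Finset G) : Set G) ⊆
        symmDiff ((fun h => s * h) '' (D : Set G)) (D : Set G) := by
      intro z hz
      rw [Finset.mem_coe, Finset.mem_image] at hz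
      obtain ⟨g, hg, rfl⟩ := hz
      rw [Finset.mem_filter] at hg
      exact Or.inl ⟨⟨g, hg.1, rfl⟩, fun h => hg.2 (Finset.mem_coe.mp h)⟩
    exact_mod_cast Set.ncard_le_ncard h2 hfin
  have hfinal : D.card ≤ c * ∑ s ∈ S, (D.filter (fun g => s * g ∉ D)).card := by
    calc D.card = ∑ k ∈ Finset.range D.card, (F k).card := hsum1.symm
      _ ≤ ∑ k ∈ Finset.range D.card,
          c * ∑ s ∈ S, (I.filter (fun y => k < f y ∧ f (s • y) ≤ k)).card :=
        Finset.sum_le_sum (fun k _ => (hFk k).trans (Nat.mul_le_mul_left c (hbd k)))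
      _ = c * ∑ s ∈ S, ∑ k ∈ Finset.range D.card,
          (I.filter (fun y => k < f y ∧ f (s • y) ≤ k)).card := by
        rw [← Finset.mul_sum, Finset.sum_comm]
      _ ≤ c * ∑ s ∈ S, (D.filter (fun g => s * g ∉ D)).card :=
        Nat.mul_le_mul_left c (Finset.sum_le_sum (fun s hs => hsum2 s hs))
  have hcast : (D.card : ℝ) ≤ c * ∑ s ∈ S, ((D.filter (fun g => s * g ∉ D)).card : ℝ) := by
    exact_mod_cast hfinal
  have hle : (c : ℝ) * ∑ s ∈ S, ((D.filter (fun g => s * g ∉ D)).card : ℝ) ≤
      c * (S.card * (1 / (c * S.card + 1) * D.card)) := by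
    apply mul_le_mul_of_nonneg_left _ (Nat.cast_nonneg c)
    calc ∑ s ∈ S, ((D.filter (fun g => s * g ∉ D)).card : ℝ)
        ≤ ∑ _s ∈ S, (1 / (c * S.card + 1) * D.card : ℝ) := Finset.sum_le_sum hDs
      _ = S.card * (1 / (c * S.card + 1) * D.card) := by rw [Finset.sum_const, nsmul_eq_mul]
  have hDpos : (0 : ℝ) < D.card := by exact_mod_cast hD.card_pos
  have hlt : (c : ℝ) * (S.card * (1 / (c * S.card + 1) * D.card)) < D.card := by
    have h1 : (c : ℝ) * (S.card * (1 / (c * S.card + 1) * D.card)) =
        (c * S.card / (c * S.card + 1)) * D.card := by ring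
    rw [h1]
    have h2 : (c : ℝ) * S.card / (c * S.card + 1) < 1 := by
      rw [div_lt_one (by positivity)]
      linarith
    calc (c * S.card / (c * S.card + 1)) * (D.card : ℝ) < 1 * D.card :=
          mul_lt_mul_of_pos_right h2 hDpos
      _ = D.card := one_mul _
  linarith

end Vale.Agent.P196
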