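import Vale.Agent.P196.Windows

namespace Vale.Agent.P196

open Function

variable {G X : Type*} [Group G] [MulAction G X]

def Good (σ : X → X) (S : Finset G) (D : ℕ) (B F : Set X) : Prop :=
  ∀ y ∈ F, ∀ s ∈ S, s • y ∉ F → ∃ b ∈ B, Near σ D b y

def NF (S : Finset G) (F : Set X) : Prop := ∀ y ∈ F, ∃ s ∈ S, s • y ≠ y

theorem inv_empty {S : Finset G} {K : ℕ} (hRP : RP S K X) {F : Set X} (hF : F.Finite)
    (hinv : ∀ y ∈ F, ∀ s ∈ S, s • y ∈ F) (hnf : NF S F) : ∀ y, y ∉ F := by
  intro y hy
  have := hRP F id (fun _ => F) hF subset_rfl (fun _ _ y hy s hs => hinv y hy s hs)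
    (fun _ _ y hy => hy) (fun _ _ => rfl) (fun _ _ _ _ _ _ => rfl) y hy
  obtain ⟨s, hs, hne⟩ := hnf y hy
  exact hne (this s hs)

theorem below_of_near {σ : X → X} {D m : ℕ} {w y b : X} (hn : Near σ D b y)
    (hy : Below σ w y) (hm : D ≤ m) : Below σ (σ^[m] w) b := by
  obtain ⟨k, hk⟩ := hy
  obtain ⟨a, ha, c, hc, e⟩ := hn
  refine ⟨m + k - a + c, ?_⟩
  have h1 : m + k - a + a = m + k := by omega
  rw [← iter_add, ← e, iter_add, ← hk, iter_add, h1]

theorem find_cut {σ : X → X} {N R K D : ℕ} {S : Finset G} {code : X → X → Fin N}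
    (hRP : RP S K X) (hK : 1 ≤ K) (hap : Aper σ)
    (hstep : ∀ s ∈ S, ∀ y : X, ∃ i ≤ D, ∃ j ≤ D, σ^[i] y = σ^[j] (s • y))
    (hR : D * (K + 2) ≤ R)
    (hcode : ∀ u y y', Near σ R u y → Near σ R u y' → code u y = code u y' → y = y')
    {T : ℕ} (hT : ∀ f : ℕ → TypeData N R S, ∃ i j, i < j ∧ j ≤ T ∧ f i = f j)
    {F : Set X} (hF : F.Finite) (hnf : NF S F) (z : X) (a : ℕ)
    (hreg : ∀ i j, i < j → j ≤ T → ∀ y ∈ F,
      (Below σ (σ^[a + j * (2 * R + 1)] z) y ∧ ¬ Below σ (σ^[a + i * (2 * R + 1)] z) y) ∨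
      Near σ R (σ^[a + i * (2 * R + 1)] z) y ∨ Near σ R (σ^[a + j * (2 * R + 1)] z) y →
        ∀ s ∈ S, s • y ∈ F) :
    ∃ i j, i < j ∧ j ≤ T ∧ ∀ y ∈ F, Below σ (σ^[a + j * (2 * R + 1)] z) y →
      Below σ (σ^[a + i * (2 * R + 1)] z) y := by
  obtain ⟨i, j, hij, hj, he⟩ := hT (fun k => typ σ N R S F code (σ^[a + k * (2 * R + 1)] z))
  refine ⟨i, j, hij, hj, ?_⟩
  obtain ⟨m, rfl⟩ := Nat.exists_eq_add_of_lt hij
  refine glue (q := (m + 1) * (2 * R + 1)) hRP hK hap hstep hR ?_ ?_ he hcode hF
    (hreg i _ hij hj) hnf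
  · calc 2 * R < 1 * (2 * R + 1) := by omega
      _ ≤ (m + 1) * (2 * R + 1) := Nat.mul_le_mul_right _ (by omega)
  · have h1 : (m + 1) * (2 * R + 1) + (a + i * (2 * R + 1)) = a + (i + m + 1) * (2 * R + 1) := by
      ring
    rw [iter_add, h1]

theorem shallow {σ : X → X} {N R K D : ℕ} {S : Finset G} {code : X → X → Fin N}
    (hRP : RP S K X) (hK : 1 ≤ K) (hap : Aper σ)
    (hstep : ∀ s ∈ S, ∀ y : X, ∃ i ≤ D, ∃ j ≤ D, σ^[i] y = σ^[j] (s • y))
    (hR : D * (K + 2) ≤ R)
    (hcode : ∀ u y y', Near σ R u y → Near σ R u y' → code u y = code u y' → y = y')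
    {T : ℕ} (hT : ∀ f : ℕ → TypeData N R S, ∃ i j, i < j ∧ j ≤ T ∧ f i = f j)
    {B F : Set X} (hF : F.Finite) (hnf : NF S F) (hgood : Good σ S D B F) {v : X}
    (hv : ∀ b ∈ B, ¬ Below σ v b) :
    ∀ x ∈ F, ∀ n, σ^[n] x = v → n ≤ T * (2 * R + 1) + D + R := by
  intro x hx n hn
  by_contra hcon
  push Not at hcon
  have hDR : D ≤ R := by
    calc D = D * 1 := (Nat.mul_one D).symm
      _ ≤ D * (K + 2) := Nat.mul_le_mul_left D (by omega)
      _ ≤ R := hR
  have hreg1 : ∀ i ≤ T, ∀ y ∈ F, ∀ m ≤ R, Below σ (σ^[m] (σ^[0 + i * (2 * R + 1)] x)) y →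
      ∀ s ∈ S, s • y ∈ F := by
    intro i hi y hy m hm hb s hs
    by_contra hsF
    obtain ⟨b, hbB, hnear⟩ := hgood y hy s hs hsF
    apply hv b hbB
    have h1 : i * (2 * R + 1) ≤ T * (2 * R + 1) := Nat.mul_le_mul_right _ hi
    have h2 := below_of_near (m := n - m - i * (2 * R + 1)) hnear hb (by omega)
    rw [iter_add, iter_add] at h2
    have h3 : n - m - i * (2 * R + 1) + m + (0 + i * (2 * R + 1)) = n := by omega
    rw [h3, hn] at h2
    exact h2
  obtain ⟨i, j, hij, hj, hcut⟩ := find_cut hRP hK hap hstep hR hcode hT hF hnf x 0 (by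
    intro i j hij hj y hy h s hs
    rcases h with h | h | h
    · exact hreg1 j hj y hy 0 (Nat.zero_le R) h.1 s hs
    · exact hreg1 i (by omega) y hy R le_rfl (h.below le_rfl) s hs
    · exact hreg1 j hj y hy R le_rfl (h.below le_rfl) s hs)
  refine inv_empty hRP (F := {y | y ∈ F ∧ Below σ (σ^[0 + i * (2 * R + 1)] x) y})
    (hF.subset fun y hy => hy.1) ?_ ?_ x ⟨hx, ⟨_, rfl⟩⟩
  · rintro y ⟨hy, hyb⟩ s hs
    have hsF := hreg1 i (by omega) y hy 0 (Nat.zero_le R) hyb s hs
    refine ⟨hsF, ?_⟩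
    by_contra hnb
    have h1 := (cross (hstep s hs y) hyb hnb).2
    apply hnb
    apply hcut _ hsF
    obtain ⟨m, rfl⟩ := Nat.exists_eq_add_of_lt hij
    have h2 := h1.below (q := (m + 1) * (2 * R + 1)) (by nlinarith)
    rw [iter_add] at h2
    have h3 : (m + 1) * (2 * R + 1) + (0 + i * (2 * R + 1)) = 0 + (i + m + 1) * (2 * R + 1) := by
      ring
    rw [h3] at h2
    exact h2
  · rintro y ⟨hy, -⟩
    exact hnf y hy

theorem depth_le {σ : X → X} {N R K D : ℕ} {S : Finset G} {code : X → X → Fin N}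
    (hRP : RP S K X) (hK : 1 ≤ K) (hap : Aper σ)
    (hstep : ∀ s ∈ S, ∀ y : X, ∃ i ≤ D, ∃ j ≤ D, σ^[i] y = σ^[j] (s • y))
    (hR : D * (K + 2) ≤ R)
    (hcode : ∀ u y y', Near σ R u y → Near σ R u y' → code u y = code u y' → y = y')
    {T : ℕ} (hT : ∀ f : ℕ → TypeData N R S, ∃ i j, i < j ∧ j ≤ T ∧ f i = f j)
    {B F : Set X} (hF : F.Finite) (hnf : NF S F) (hgood : Good σ S D B F) {w : X} {L : ℕ}
    (hw : ∀ b ∈ B, ∀ n, σ^[n] b = w → n ≤ L) :
    ∀ x ∈ F, ∀ n, σ^[n] x = w → n ≤ T * (2 * R + 1) + D + R + L + 1 := by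
  intro x hx n hn
  by_contra hcon
  push Not at hcon
  have := shallow hRP hK hap hstep hR hcode hT hF hnf hgood (v := σ^[n - (L + 1)] x) (by
    rintro b hb ⟨m, hm⟩
    have h1 : σ^[L + 1 + m] b = w := by
      have h0 : L + 1 + (n - (L + 1)) = n := by omega
      rw [← iter_add, hm, iter_add, h0, hn]
    have := hw b hb _ h1
    omega) x hx _ rfl
  omega

theorem iso {σ : X → X} {N R K D d : ℕ} {S : Finset G} {code : X → X → Fin N}
    (hRP : RP S K X) (hK : 1 ≤ K) (hap : Aper σ)
    (hd : ∀ y, ∃ T : Finset X, T.card ≤ d ∧ ∀ x, σ x = y → x ∈ T)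
    (hstep : ∀ s ∈ S, ∀ y : X, ∃ i ≤ D, ∃ j ≤ D, σ^[i] y = σ^[j] (s • y))
    (hR : D * (K + 2) ≤ R)
    (hcode : ∀ u y y', Near σ R u y → Near σ R u y' → code u y = code u y' → y = y')
    {T : ℕ} (hT : ∀ f : ℕ → TypeData N R S, ∃ i j, i < j ∧ j ≤ T ∧ f i = f j)
    {L c : ℕ} (hL : L = T * (2 * R + 1) + 2 * (D + R + 1))
    (hc : c = (T * (2 * R + 1) + D + R + L + 1 + 1) * (d + 1) ^ (T * (2 * R + 1) + D + R + L + 1)) :
    ∀ (k : ℕ) (B F : Finset X), B.card ≤ k → Good σ S D (B : Set X) (F : Set X) →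
      NF S (F : Set X) → F.card ≤ c * k := by
  classical
  have hDR : D ≤ R := by
    calc D = D * 1 := (Nat.mul_one D).symm
      _ ≤ D * (K + 2) := Nat.mul_le_mul_left D (by omega)
      _ ≤ R := hR
  have hstep' : ∀ s ∈ S, ∀ y : X, ∃ i ≤ D, ∃ j ≤ D, σ^[i] (s • y) = σ^[j] y := by
    intro s hs y
    obtain ⟨i, hi, j, hj, e⟩ := hstep s hs y
    exact ⟨j, hj, i, hi, e.symm⟩
  -- the number of points of `F` below `w`
  have hcount : ∀ (B F : Finset X), Good σ S D (B : Set X) (F : Set X) → NF S (F : Set X) →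
      ∀ w, (∀ b ∈ B, ∀ n, σ^[n] b = w → n ≤ L) → (F.filter (Below σ w)).card ≤ c := by
    intro B F hg hnf w hw
    obtain ⟨U, hU, hU'⟩ := exists_depth hd (T * (2 * R + 1) + D + R + L + 1) w
    rw [hc]
    refine (Finset.card_le_card ?_).trans hU
    intro x hx
    obtain ⟨hxF, n, hn⟩ := Finset.mem_filter.mp hx
    exact hU' x n (depth_le hRP hK hap hstep hR hcode hT F.finite_toSet hnf hg
      (fun b hb => hw b (Finset.mem_coe.mp hb)) x (Finset.mem_coe.mpr hxF) n hn) hn
  intro k
  induction k with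
  | zero =>
    intro B F hB hg hnf
    have hB0 : B = ∅ := Finset.card_eq_zero.mp (Nat.le_zero.mp hB)
    have : F = ∅ := by
      rw [Finset.eq_empty_iff_forall_notMem]
      refine fun y hy => inv_empty hRP F.finite_toSet ?_ hnf y (Finset.mem_coe.mpr hy)
      intro y hy s hs
      by_contra h
      obtain ⟨b, hb, -⟩ := hg y hy s hs h
      rw [hB0] at hb
      simp at hb
    simp [this]
  | succ k ih =>
    intro B F hB hg hnf
    by_cases hcase : ∃ b ∈ B, ∀ m ≤ L, ∀ b' ∈ B, Below σ (σ^[m] b) b' → b' = b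
    · obtain ⟨b, hbB, hb⟩ := hcase
      -- regularity along the path above `b`
      have hreg : ∀ i j, i < j → j ≤ T → ∀ y ∈ (F : Set X),
          (Below σ (σ^[(D + R + 1) + j * (2 * R + 1)] b) y ∧
            ¬ Below σ (σ^[(D + R + 1) + i * (2 * R + 1)] b) y) ∨
          Near σ R (σ^[(D + R + 1) + i * (2 * R + 1)] b) y ∨
          Near σ R (σ^[(D + R + 1) + j * (2 * R + 1)] b) y → ∀ s ∈ S, s • y ∈ (F : Set X) := by
        intro i j hij hj y hy h s hs
        by_contra hsF
        obtain ⟨b', hb'B, hnear⟩ := hg y hy s hs hsF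
        have hjT : j * (2 * R + 1) ≤ T * (2 * R + 1) := Nat.mul_le_mul_right _ hj
        have hiT : i * (2 * R + 1) ≤ T * (2 * R + 1) := Nat.mul_le_mul_right _ (by omega)
        have hbel : ∃ l ≤ T, ∃ m ≤ R, Below σ (σ^[m] (σ^[(D + R + 1) + l * (2 * R + 1)] b)) y := by
          rcases h with h | h | h
          · exact ⟨j, hj, 0, Nat.zero_le R, h.1⟩
          · exact ⟨i, by omega, R, le_rfl, h.below le_rfl⟩
          · exact ⟨j, hj, R, le_rfl, h.below le_rfl⟩
        obtain ⟨l, hl, m, hm, hlm⟩ := hbel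
        have hlT : l * (2 * R + 1) ≤ T * (2 * R + 1) := Nat.mul_le_mul_right _ hl
        have hbb : b' = b := by
          have h2 := below_of_near (m := D) hnear hlm le_rfl
          rw [iter_add, iter_add] at h2
          exact hb _ (by omega) b' (Finset.mem_coe.mp hb'B) h2
        rw [hbb] at hnear
        -- now `b` itself is near `y`
        rcases h with h | h | h
        · apply h.2
          obtain ⟨a, ha, c', hc', e⟩ := hnear
          have h0 : (D + R + 1) + i * (2 * R + 1) - c' + c' = (D + R + 1) + i * (2 * R + 1) := by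
            omega
          refine ⟨(D + R + 1) + i * (2 * R + 1) - c' + a, ?_⟩
          rw [← iter_add, e, iter_add, h0]
        · obtain ⟨a, ha, c', hc', e⟩ := hnear
          obtain ⟨a2, ha2, c2, hc2, e2⟩ := h
          rw [iter_add] at e2
          have : σ^[a2 + c'] b = σ^[a + (c2 + ((D + R + 1) + i * (2 * R + 1)))] b := by
            rw [← iter_add, ← e, iter_add, add_comm a2 a, ← iter_add, e2, iter_add]
          have := hap b _ _ this
          omega
        · obtain ⟨a, ha, c', hc', e⟩ := hnear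
          obtain ⟨a2, ha2, c2, hc2, e2⟩ := h
          rw [iter_add] at e2
          have : σ^[a2 + c'] b = σ^[a + (c2 + ((D + R + 1) + j * (2 * R + 1)))] b := by
            rw [← iter_add, ← e, iter_add, add_comm a2 a, ← iter_add, e2, iter_add]
          have := hap b _ _ this
          omega
      obtain ⟨i, j, hij, hj, hcut⟩ := find_cut hRP hK hap hstep hR hcode hT F.finite_toSet hnf b
        (D + R + 1) hreg
      have hjT : j * (2 * R + 1) ≤ T * (2 * R + 1) := Nat.mul_le_mul_right _ hj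
      have hiT : i * (2 * R + 1) ≤ T * (2 * R + 1) := Nat.mul_le_mul_right _ (by omega)
      set u := σ^[(D + R + 1) + i * (2 * R + 1)] b with hu
      have hcard1 : (F.filter (Below σ u)).card ≤ c := by
        apply hcount B F hg hnf
        intro b' hb' n hn
        have hbb : b' = b := hb _ (by omega) b' hb' ⟨n, hn⟩
        rw [hbb] at hn
        have := hap b _ _ (hn.trans hu)
        omega
      have hcard2 : (F.filter (fun y => ¬ Below σ u y)).card ≤ c * k := by
        apply ih (B.erase b) _ (by rw [Finset.card_erase_of_mem hbB]; omega)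
        · intro y hy s hs hsy
          rw [Finset.mem_coe, Finset.mem_filter] at hy
          obtain ⟨hyF, hyu⟩ := hy
          by_cases hsF : s • y ∈ F
          · exfalso
            have hsu : Below σ u (s • y) := by
              by_contra h
              exact hsy (Finset.mem_coe.mpr (Finset.mem_filter.mpr ⟨hsF, h⟩))
            have h1 := (cross (hstep' s hs y) hsu hyu).2
            apply hyu
            apply hcut y (Finset.mem_coe.mpr hyF)
            obtain ⟨m, rfl⟩ := Nat.exists_eq_add_of_lt hij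
            have h2 := h1.below (q := (m + 1) * (2 * R + 1)) (by nlinarith)
            rw [hu, iter_add] at h2
            have h3 : (m + 1) * (2 * R + 1) + ((D + R + 1) + i * (2 * R + 1)) =
                (D + R + 1) + (i + m + 1) * (2 * R + 1) := by ring
            rw [h3] at h2
            exact h2
          · obtain ⟨b', hb'B, hnear⟩ := hg y (Finset.mem_coe.mpr hyF) s hs
              (fun h => hsF (Finset.mem_coe.mp h))
            refine ⟨b', ?_, hnear⟩
            rw [Finset.mem_coe, Finset.mem_erase]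
            refine ⟨?_, Finset.mem_coe.mp hb'B⟩
            intro hbb
            rw [hbb] at hnear
            apply hyu
            obtain ⟨a, ha, c', hc', e⟩ := hnear
            have h0 : (D + R + 1) + i * (2 * R + 1) - c' + c' = (D + R + 1) + i * (2 * R + 1) := by
              omega
            refine ⟨(D + R + 1) + i * (2 * R + 1) - c' + a, ?_⟩
            rw [← iter_add, e, iter_add, hu, h0]
        · intro y hy
          exact hnf y (Finset.mem_coe.mpr (Finset.mem_filter.mp (Finset.mem_coe.mp hy)).1)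
      have hsplit := Finset.card_filter_add_card_filter_not (s := F) (p := Below σ u)
      have : c * (k + 1) = c * k + c := Nat.mul_succ c k
      omega
    · by_cases hBe : B = ∅
      · have := ih B F (by simp [hBe]) hg hnf
        have : c * k ≤ c * (k + 1) := Nat.mul_le_mul_left c (Nat.le_succ k)
        omega
      push Not at hcase
      let kk : X → ℕ := fun b => sInf {m | ∃ b' ∈ B, Below σ (σ^[m] b) b' ∧ b' ≠ b}
      have hkk1 : ∀ b ∈ B, ∃ b' ∈ B, Below σ (σ^[kk b] b) b' ∧ b' ≠ b := by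
        intro b hb
        obtain ⟨m, hm, b', hb', h1, h2⟩ := hcase b hb
        exact Nat.sInf_mem (s := {m | ∃ b' ∈ B, Below σ (σ^[m] b) b' ∧ b' ≠ b}) ⟨m, b', hb', h1, h2⟩
      have hkk2 : ∀ b ∈ B, kk b ≤ L := by
        intro b hb
        obtain ⟨m, hm, b', hb', h1, h2⟩ := hcase b hb
        exact (Nat.sInf_le (s := {m | ∃ b' ∈ B, Below σ (σ^[m] b) b' ∧ b' ≠ b})
          ⟨b', hb', h1, h2⟩).trans hm
      have hkk3 : ∀ b m, (∃ b' ∈ B, Below σ (σ^[m] b) b' ∧ b' ≠ b) → kk b ≤ m := by
        intro b m h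
        exact Nat.sInf_le h
      obtain ⟨b, hbB, hbmin⟩ := Finset.exists_min_image B
        (fun b => (B.filter (Below σ (σ^[kk b] b))).card) (Finset.nonempty_iff_ne_empty.mpr hBe)
      obtain ⟨b2, hb2B, hb2b, hb2ne⟩ := hkk1 b hbB
      set w := σ^[kk b] b with hw
      have hdepth : ∀ b' ∈ B, ∀ m, σ^[m] b' = w → m ≤ L := by
        intro b' hb' m hm
        have h1 : ∃ b'' ∈ B, Below σ (σ^[m] b') b'' ∧ b'' ≠ b' := by
          rw [hm]
          by_cases h : b' = b
          · exact ⟨b2, hb2B, hb2b, by rw [h]; exact hb2ne⟩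
          · exact ⟨b, hbB, ⟨kk b, hw.symm⟩, fun h' => h h'.symm⟩
        have h2 := hkk3 b' m h1
        have h3 : B.filter (Below σ (σ^[kk b'] b')) ⊆ B.filter (Below σ w) := by
          intro z hz
          rw [Finset.mem_filter] at hz ⊢
          refine ⟨hz.1, ?_⟩
          have h4 := hz.2.up (m - kk b')
          rw [iter_add, Nat.sub_add_cancel h2, hm] at h4
          exact h4
        have h4 := Finset.eq_of_subset_of_card_le h3 (hbmin b' hb')
        have hb1 : b ∈ B.filter (Below σ (σ^[kk b'] b')) := by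
          rw [h4]; exact Finset.mem_filter.mpr ⟨hbB, kk b, hw.symm⟩
        have hb22 : b2 ∈ B.filter (Below σ (σ^[kk b'] b')) := by
          rw [h4]; exact Finset.mem_filter.mpr ⟨hb2B, hb2b⟩
        obtain ⟨p, hp⟩ := (Finset.mem_filter.mp hb1).2
        have h5 : σ^[(m - kk b') + p] b = σ^[kk b] b := by
          rw [← iter_add, hp, iter_add, Nat.sub_add_cancel h2, hm, hw]
        have h6 := hap b _ _ h5
        have h7 : kk b ≤ p := by
          apply hkk3
          refine ⟨b2, hb2B, ?_, hb2ne⟩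
          rw [hp]
          exact (Finset.mem_filter.mp hb22).2
        have h8 := hkk2 b' hb'
        omega
      have hcard1 : (F.filter (Below σ w)).card ≤ c := hcount B F hg hnf w hdepth
      have hcard2 : (F.filter (fun y => ¬ Below σ w y)).card ≤ c * k := by
        apply ih (insert w (B.filter (fun y => ¬ Below σ w y)))
        · have h1 := Finset.card_insert_le w (B.filter (fun y => ¬ Below σ w y))
          have h2 := Finset.card_filter_add_card_filter_not (s := B) (p := Below σ w)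
          have h3 : 1 < (B.filter (Below σ w)).card := by
            rw [Finset.one_lt_card]
            exact ⟨b, Finset.mem_filter.mpr ⟨hbB, kk b, hw.symm⟩, b2,
              Finset.mem_filter.mpr ⟨hb2B, hb2b⟩, fun h => hb2ne h.symm⟩
          omega
        · intro y hy s hs hsy
          rw [Finset.mem_coe, Finset.mem_filter] at hy
          obtain ⟨hyF, hyu⟩ := hy
          by_cases hsF : s • y ∈ F
          · have hsu : Below σ w (s • y) := by
              by_contra h
              exact hsy (Finset.mem_coe.mpr (Finset.mem_filter.mpr ⟨hsF, h⟩))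
            exact ⟨w, by simp, (cross (hstep' s hs y) hsu hyu).2⟩
          · obtain ⟨b', hb'B, hnear⟩ := hg y (Finset.mem_coe.mpr hyF) s hs
              (fun h => hsF (Finset.mem_coe.mp h))
            by_cases hb'w : Below σ w b'
            · refine ⟨w, by simp, ?_⟩
              obtain ⟨m, hm⟩ := hb'w
              obtain ⟨a, ha, c', hc', e⟩ := hnear
              have hmc : m < c' := by
                by_contra hcon
                push Not at hcon
                apply hyu
                refine ⟨m - c' + a, ?_⟩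
                rw [← iter_add, e, iter_add, Nat.sub_add_cancel hcon, hm]
              refine ⟨a, ha, c' - m, by omega, ?_⟩
              rw [e, ← hm, iter_add, Nat.sub_add_cancel hmc.le]
            · refine ⟨b', ?_, hnear⟩
              rw [Finset.mem_coe, Finset.mem_insert, Finset.mem_filter]
              exact Or.inr ⟨Finset.mem_coe.mp hb'B, hb'w⟩
        · intro y hy
          exact hnf y (Finset.mem_coe.mpr (Finset.mem_filter.mp (Finset.mem_coe.mp hy)).1)
      have hsplit := Finset.card_filter_add_card_filter_not (s := F) (p := Below σ w)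
      have : c * (k + 1) = c * k + c := Nat.mul_succ c k
      omega

end Vale.Agent.P196
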