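import Mathlib

namespace Vale.Agent.P196

open Function

theorem retract (G : Type*) [Group G] [Infinite G] [IsSimpleGroup G]
    [hfp : Group.IsFinitelyPresented G] :
    ∃ (S : Finset G) (K : ℕ), (∀ s ∈ S, s⁻¹ ∈ S) ∧ Subgroup.closure (S : Set G) = ⊤ ∧ 1 ≤ K ∧
      ∀ (Y : Type*) [MulAction G Y] (M : Set Y) (P : Y → Y) (N : ℕ → Set Y), M.Finite →
        M ⊆ N 0 → (∀ j < K, ∀ y ∈ N j, ∀ s ∈ S, s • y ∈ N (j + 1)) →
        (∀ j ≤ K, ∀ y ∈ N j, P y ∈ M) → (∀ m ∈ M, P m = m) →
        (∀ j < K, ∀ y ∈ N j, ∀ s ∈ S, P (s • P y) = P (s • y)) →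
        ∀ m ∈ M, ∀ s ∈ S, P (s • m) = m := by
  classical
  obtain ⟨n, φ, hφ, R, hR, hRφ⟩ := hfp.out
  let g : Fin n × Bool → G := fun a => cond a.2 (φ (FreeGroup.of a.1)) (φ (FreeGroup.of a.1))⁻¹
  let S : Finset G := Finset.univ.image g
  have hgS : ∀ a, g a ∈ S := fun a => Finset.mem_image_of_mem g (Finset.mem_univ a)
  let K : ℕ := hR.toFinset.sup (fun r => r.toWord.length) + 2
  refine ⟨S, K, ?_, ?_, by omega, ?_⟩
  · intro s hs
    simp only [S, Finset.mem_image, Finset.mem_univ, true_and] at hs ⊢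
    obtain ⟨⟨i, b⟩, rfl⟩ := hs
    refine ⟨(i, !b), ?_⟩
    cases b <;> simp [g]
  · rw [eq_top_iff]
    intro x _
    obtain ⟨w, rfl⟩ := hφ x
    induction w using FreeGroup.induction_on with
    | C1 => simp
    | of i =>
      apply Subgroup.subset_closure
      exact Finset.mem_coe.mpr (hgS (i, true))
    | inv_of i ih =>
      apply Subgroup.subset_closure
      have := hgS (i, false)
      simpa [g] using this
    | mul x y hx hy => rw [map_mul]; exact mul_mem (hx trivial) (hy trivial)
  · intro Y _ M P N hM h0 hN hP hfix hcomp m hm s hs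
    have hN1 : ∀ m ∈ M, ∀ a, g a • m ∈ N 1 := fun m hm a =>
      hN 0 (by omega) m (h0 hm) (g a) (hgS a)
    have hPm : ∀ m ∈ M, ∀ a, P (g a • m) ∈ M := fun m hm a =>
      hP 1 (by omega) _ (hN1 m hm a)
    have hinv : ∀ i b, g (i, !b) = (g (i, b))⁻¹ := by
      intro i b; cases b <;> simp [g]
    have hback : ∀ i b, ∀ m ∈ M, P (g (i, !b) • P (g (i, b) • m)) = m := by
      intro i b m hm
      rw [hcomp 1 (by omega) _ (hN1 m hm (i, b)) _ (hgS (i, !b)), hinv, inv_smul_smul]
      exact hfix m hm
    let e : Fin n → Equiv.Perm M := fun i =>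
      { toFun := fun m => ⟨P (g (i, true) • m.1), hPm m.1 m.2 _⟩
        invFun := fun m => ⟨P (g (i, false) • m.1), hPm m.1 m.2 _⟩
        left_inv := fun m => Subtype.ext (hback i true m.1 m.2)
        right_inv := fun m => Subtype.ext (hback i false m.1 m.2) }
    let Φ : FreeGroup (Fin n) →* Equiv.Perm M := FreeGroup.lift e
    have hletter : ∀ (a : Fin n × Bool) (m : M), ((Φ (FreeGroup.mk [a])) m).1 = P (g a • m.1) := by
      intro a m
      obtain ⟨i, b⟩ := a
      cases b
      · simp [Φ, FreeGroup.lift_mk, e, Equiv.Perm.inv_def]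
      · simp [Φ, FreeGroup.lift_mk, e]
    have hgmk : ∀ a, φ (FreeGroup.mk [a]) = g a := by
      rintro ⟨i, b⟩
      cases b
      · have : (FreeGroup.mk [(i, false)]) = (FreeGroup.of i)⁻¹ := rfl
        rw [this, map_inv]; rfl
      · rfl
    have hword : ∀ (L : List (Fin n × Bool)), L.length ≤ K → ∀ m : M,
        ((Φ (FreeGroup.mk L)) m).1 = P (φ (FreeGroup.mk L) • m.1) ∧
          φ (FreeGroup.mk L) • m.1 ∈ N L.length := by
      intro L
      induction L with
      | nil =>
        intro _ m
        have h1 : (FreeGroup.mk ([] : List (Fin n × Bool))) = 1 := rfl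
        rw [h1, map_one, map_one, one_smul]
        exact ⟨(hfix m.1 m.2).symm, h0 m.2⟩
      | cons a L ih =>
        intro hL m
        simp only [List.length_cons] at hL
        obtain ⟨h1, h2⟩ := ih (by omega) m
        have h3 : FreeGroup.mk (a :: L) = FreeGroup.mk [a] * FreeGroup.mk L := by
          rw [FreeGroup.mul_mk]; rfl
        rw [h3, map_mul, map_mul, mul_smul, hgmk]
        constructor
        · rw [Equiv.Perm.mul_apply, hletter, h1]
          exact hcomp _ (by omega) _ h2 _ (hgS a)
        · rw [List.length_cons]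
          exact hN _ (by omega) _ h2 _ (hgS a)
    have hker : φ.ker ≤ Φ.ker := by
      rw [← hRφ]
      apply Subgroup.normalClosure_le_normal
      intro r hr
      have hr1 : φ r = 1 := by
        have : r ∈ φ.ker := by rw [← hRφ]; exact Subgroup.subset_normalClosure hr
        exact this
      have hlen : r.toWord.length ≤ K := by
        have : r.toWord.length ≤ hR.toFinset.sup (fun r => r.toWord.length) :=
          Finset.le_sup (f := fun r : FreeGroup (Fin n) => r.toWord.length)
            (hR.mem_toFinset.mpr hr)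
        omega
      rw [SetLike.mem_coe, MonoidHom.mem_ker]
      ext m
      have h1 := (hword r.toWord hlen m).1
      rw [FreeGroup.mk_toWord, hr1, one_smul, hfix m.1 m.2] at h1
      simpa using h1
    let ψ : G →* Equiv.Perm M := (MonoidHom.liftOfSurjective φ hφ) ⟨Φ, hker⟩
    have hψ : ∀ w, ψ (φ w) = Φ w := by
      intro w
      have := MonoidHom.liftOfRightInverse_comp_apply φ (surjInv hφ) (rightInverse_surjInv hφ)
        ⟨Φ, hker⟩ w
      exact this
    have : Finite M := hM.to_subtype
    have hψker : ψ.ker = ⊤ := by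
      rcases (MonoidHom.normal_ker ψ).eq_bot_or_eq_top with h | h
      · exfalso
        have hinj : Injective ψ := (MonoidHom.ker_eq_bot_iff ψ).mp h
        exact not_finite_iff_infinite.mpr ‹Infinite G› (Finite.of_injective ψ hinj)
      · exact h
    obtain ⟨a, -, rfl⟩ := Finset.mem_image.mp hs
    have h1 := hletter a ⟨m, hm⟩
    rw [← hψ] at h1
    have h2 : ψ (φ (FreeGroup.mk [a])) = 1 := by
      rw [← MonoidHom.mem_ker, hψker]; exact Subgroup.mem_top _
    rw [h2] at h1
    simpa using h1.symm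

end Vale.Agent.P196
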