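import Vale.Agent.P196.Windows

namespace Vale.Agent.P196

open Function

variable {G X : Type*} [Group G] [MulAction G X]

def AA (S : Finset G) : ℕ → Set G
  | 0 => {1}
  | j + 1 => AA S j ∪ {g | ∃ s ∈ S, ∃ a ∈ AA S j, g = s * a}

theorem AA_finite (S : Finset G) (j : ℕ) : (AA S j).Finite := by
  induction j with
  | zero => exact Set.finite_singleton 1
  | succ j ih =>
    refine ih.union ?_
    refine ((S.finite_toSet.prod ih).image (fun p => p.1 * p.2)).subset ?_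
    rintro g ⟨s, hs, a, ha, rfl⟩
    exact ⟨(s, a), ⟨hs, ha⟩, rfl⟩

theorem AA_mono (S : Finset G) : Monotone (AA S) :=
  monotone_nat_of_le_succ (fun _ => Set.subset_union_left)

theorem AA_mul (S : Finset G) {s a : G} {j : ℕ} (hs : s ∈ S) (ha : a ∈ AA S j) :
    s * a ∈ AA S (j + 1) := Or.inr ⟨s, hs, a, ha, rfl⟩

theorem one_mem_AA (S : Finset G) (j : ℕ) : (1 : G) ∈ AA S j :=
  AA_mono S (Nat.zero_le j) rfl

def bd (S : Finset G) (F : Set X) : Set X := {y | y ∈ F ∧ ∃ s ∈ S, s • y ∉ F}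

def Nr (S : Finset G) (F : Set X) (j : ℕ) : Set X := {y | ∃ z ∈ bd S F, ∃ a ∈ AA S j, y = a • z}

theorem Nr_step {S : Finset G} {F : Set X} {j : ℕ} {y : X} {s : G} (hs : s ∈ S)
    (hy : y ∈ Nr S F j) : s • y ∈ Nr S F (j + 1) := by
  obtain ⟨z, hz, a, ha, rfl⟩ := hy
  exact ⟨z, hz, s * a, AA_mul S hs ha, (mul_smul s a z).symm⟩

theorem Nr_mono {S : Finset G} {F : Set X} {i j : ℕ} (h : i ≤ j) : Nr S F i ⊆ Nr S F j := by
  rintro y ⟨z, hz, a, ha, rfl⟩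
  exact ⟨z, hz, a, AA_mono S h ha, rfl⟩

theorem bd_sub {S : Finset G} {F : Set X} (j : ℕ) : bd S F ⊆ Nr S F j :=
  fun z hz => ⟨z, hz, 1, one_mem_AA S j, (one_smul G z).symm⟩

theorem Nr_eq {S : Finset G} {F : Set X} {j : ℕ} :
    Nr S F j = (fun p : G × X => p.1 • p.2) '' (AA S j ×ˢ bd S F) := by
  ext y
  constructor
  · rintro ⟨z, hz, a, ha, rfl⟩
    exact ⟨(a, z), ⟨ha, hz⟩, rfl⟩
  · rintro ⟨⟨a, z⟩, ⟨ha, hz⟩, rfl⟩
    exact ⟨z, hz, a, ha, rfl⟩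

theorem bd_finite {S : Finset G} {F : Set X} (hF : F.Finite) : (bd S F).Finite :=
  hF.subset (fun _ hy => hy.1)

theorem Nr_finite {S : Finset G} {F : Set X} (hF : F.Finite) (j : ℕ) : (Nr S F j).Finite := by
  rw [Nr_eq]
  exact ((AA_finite S j).prod (bd_finite hF)).image _

theorem Nr_ncard {S : Finset G} {F : Set X} (hF : F.Finite) (j : ℕ) :
    (Nr S F j).ncard ≤ (AA S j).ncard * (bd S F).ncard := by
  rw [Nr_eq]
  refine (Set.ncard_image_le ((AA_finite S j).prod (bd_finite hF))).trans ?_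
  rw [Set.ncard_prod]

theorem bd_ncard {S : Finset G} {F : Set X} {b : G → ℕ}
    (hb : ∀ g, {y | y ∈ F ∧ g • y ∉ F}.ncard ≤ b g) : (bd S F).ncard ≤ ∑ s ∈ S, b s := by
  have h1 : bd S F = ⋃ s ∈ S, {y | y ∈ F ∧ s • y ∉ F} := by
    ext y
    simp only [bd, Set.mem_ofPred_eq, Set.mem_iUnion]
    constructor
    · rintro ⟨hy, s, hs, h⟩
      exact ⟨s, hs, hy, h⟩
    · rintro ⟨s, hs, hy, h⟩
      exact ⟨hy, s, hs, h⟩
  rw [h1]
  exact (Finset.set_ncard_biUnion_le S _).trans (Finset.sum_le_sum (fun s _ => hb s))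

/-- gluing lemma for two nested finite sets with isomorphic boundary windows -/
theorem glue1 {N K : ℕ} {S : Finset G} {F F' : Set X} {c c' : X → Fin N}
    (hRP : RP S K X) (hK : 1 ≤ K) (hsym : ∀ s ∈ S, s⁻¹ ∈ S) (hF'fin : F'.Finite)
    (hFF' : F ⊆ F') (h1 : Nr S F (K + 1) ⊆ F')
    (h2 : ∀ y ∈ Nr S F' (K + 1), y ∉ F ∧ y ∉ Nr S F (K + 1))
    (hc : ∀ y ∈ Nr S F (K + 1), ∀ y' ∈ Nr S F (K + 1), c y = c y' → y = y')
    (hc' : ∀ y ∈ Nr S F' (K + 1), ∀ y' ∈ Nr S F' (K + 1), c' y = c' y' → y = y')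
    (hA : {p | ∃ y ∈ Nr S F (K + 1), c y = p} = {p | ∃ y ∈ Nr S F' (K + 1), c' y = p})
    (hM : {p | ∃ y ∈ Nr S F (K + 1), c y = p ∧ y ∈ F} =
      {p | ∃ y ∈ Nr S F' (K + 1), c' y = p ∧ y ∈ F'})
    (hE : ∀ s ∈ S,
      {p : Fin N × Fin N | ∃ y ∈ Nr S F (K + 1), s • y ∈ Nr S F (K + 1) ∧ c y = p.1 ∧
        c (s • y) = p.2} =
      {p : Fin N × Fin N | ∃ y ∈ Nr S F' (K + 1), s • y ∈ Nr S F' (K + 1) ∧ c' y = p.1 ∧
        c' (s • y) = p.2}) :
    ∀ y ∈ F, ∀ s ∈ S, s • y = y := by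
  classical
  set W := Nr S F (K + 1) with hW
  set W' := Nr S F' (K + 1) with hW'
  let M : Set X := {y | y ∈ F' ∧ y ∉ F}
  have hex : ∀ y ∈ W, ∃ y' ∈ W', c' y' = c y := by
    intro y hy
    have : c y ∈ {p | ∃ y ∈ W', c' y = p} := by rw [← hA]; exact ⟨y, hy, rfl⟩
    exact this
  have hex' : ∀ y ∈ W', ∃ y' ∈ W, c y' = c' y := by
    intro y hy
    have : c' y ∈ {p | ∃ y ∈ W, c y = p} := by rw [hA]; exact ⟨y, hy, rfl⟩
    exact this
  let φ : X → X := fun y => if h : ∃ y' ∈ W', c' y' = c y then h.choose else y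
  let ψ : X → X := fun y => if h : ∃ y' ∈ W, c y' = c' y then h.choose else y
  have hφ : ∀ y ∈ W, φ y ∈ W' ∧ c' (φ y) = c y := by
    intro y hy
    simp only [φ]
    rw [dif_pos (hex y hy)]
    exact (hex y hy).choose_spec
  have hψ : ∀ y ∈ W', ψ y ∈ W ∧ c (ψ y) = c' y := by
    intro y hy
    simp only [ψ]
    rw [dif_pos (hex' y hy)]
    exact (hex' y hy).choose_spec
  -- membership is preserved
  have hmem : ∀ y ∈ W, ∀ y' ∈ W', c' y' = c y → (y ∈ F ↔ y' ∈ F') := by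
    intro y hy y' hy' hcc
    constructor
    · intro h
      have : c y ∈ {p | ∃ y ∈ W', c' y = p ∧ y ∈ F'} := by rw [← hM]; exact ⟨y, hy, rfl, h⟩
      obtain ⟨z, hz, hz1, hz2⟩ := this
      rwa [hc' y' hy' z hz (hcc.trans hz1.symm)]
    · intro h
      have : c' y' ∈ {p | ∃ y ∈ W, c y = p ∧ y ∈ F} := by rw [hM]; exact ⟨y', hy', rfl, h⟩
      obtain ⟨z, hz, hz1, hz2⟩ := this
      rwa [hc y hy z hz (hcc.symm.trans hz1.symm)]
  -- edges are preserved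
  have hedge : ∀ s ∈ S, ∀ y ∈ W, s • y ∈ W → ∀ y' ∈ W', c' y' = c y →
      s • y' ∈ W' ∧ c' (s • y') = c (s • y) := by
    intro s hs y hy hsy y' hy' hcc
    have : (c y, c (s • y)) ∈ {p : Fin N × Fin N | ∃ y ∈ W', s • y ∈ W' ∧ c' y = p.1 ∧
        c' (s • y) = p.2} := by
      rw [← hE s hs]
      exact ⟨y, hy, hsy, rfl, rfl⟩
    obtain ⟨z, hz, hz1, hz2, hz3⟩ := this
    have hz' : y' = z := hc' y' hy' z hz (hcc.trans hz2.symm)
    rw [hz']
    exact ⟨hz1, hz3⟩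
  have hedge' : ∀ s ∈ S, ∀ y ∈ W', s • y ∈ W' → ∀ y' ∈ W, c y' = c' y →
      s • y' ∈ W ∧ c (s • y') = c' (s • y) := by
    intro s hs y hy hsy y' hy' hcc
    have : (c' y, c' (s • y)) ∈ {p : Fin N × Fin N | ∃ y ∈ W, s • y ∈ W ∧ c y = p.1 ∧
        c (s • y) = p.2} := by
      rw [hE s hs]
      exact ⟨y, hy, hsy, rfl, rfl⟩
    obtain ⟨z, hz, hz1, hz2, hz3⟩ := this
    have hz' : y' = z := hc y' hy' z hz (hcc.trans hz2.symm)
    rw [hz']
    exact ⟨hz1, hz3⟩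
  let P : X → X := fun y => if y ∈ M then y else if y ∈ F then φ y else ψ y
  let NN : ℕ → Set X := fun j => {y | y ∈ M ∨ (y ∈ F ∧ y ∈ Nr S F (j + 1)) ∨
    (y ∉ F' ∧ y ∈ Nr S F' (j + 1))}
  have hPM : ∀ y ∈ M, P y = y := by
    intro y hy
    simp only [P]
    rw [if_pos hy]
  have hPφ : ∀ y, y ∈ F → P y = φ y := by
    intro y hy
    simp only [P]
    rw [if_neg (fun h => h.2 hy), if_pos hy]
  have hPψ : ∀ y, y ∉ F' → P y = ψ y := by
    intro y hy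
    simp only [P]
    rw [if_neg (fun h => hy h.1), if_neg (fun h => hy (hFF' h))]
  have hφM : ∀ y ∈ W, y ∈ F → φ y ∈ M := by
    intro y hy hyF
    exact ⟨(hmem y hy _ (hφ y hy).1 (hφ y hy).2).mp hyF, (h2 _ (hφ y hy).1).1⟩
  have hψM : ∀ y ∈ W', y ∉ F' → ψ y ∈ M := by
    intro y hy hyF
    refine ⟨h1 (hψ y hy).1, fun h => hyF ?_⟩
    exact (hmem _ (hψ y hy).1 y hy (hψ y hy).2.symm).mp h
  -- crossing
  have hin : ∀ (A : Set X) (y : X), ∀ s ∈ S, y ∉ A → s • y ∈ A → s • y ∈ bd S A := by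
    intro A y s hs hy hsy
    exact ⟨hsy, s⁻¹, hsym s hs, by rwa [inv_smul_smul]⟩
  have hNstep : ∀ j < K, ∀ y ∈ NN j, ∀ s ∈ S, s • y ∈ NN (j + 1) := by
    intro j hj y hy s hs
    rcases hy with h | h | h
    · by_cases ha : s • y ∈ F
      · exact Or.inr (Or.inl ⟨ha, bd_sub _ (hin F y s hs h.2 ha)⟩)
      · by_cases hb : s • y ∈ F'
        · exact Or.inl ⟨hb, ha⟩
        · exact Or.inr (Or.inr ⟨hb, Nr_mono (by omega) (Nr_step hs (bd_sub 0 ⟨h.1, s, hs, hb⟩))⟩)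
    · have hn := Nr_step hs h.2
      by_cases ha : s • y ∈ F
      · exact Or.inr (Or.inl ⟨ha, hn⟩)
      · exact Or.inl ⟨h1 (Nr_mono (by omega) hn), ha⟩
    · have hn := Nr_step hs h.2
      by_cases hb : s • y ∈ F'
      · exact Or.inl ⟨hb, (h2 _ (Nr_mono (by omega) hn)).1⟩
      · exact Or.inr (Or.inr ⟨hb, hn⟩)
  have hPN : ∀ j ≤ K, ∀ y ∈ NN j, P y ∈ M := by
    intro j hj y hy
    rcases hy with h | h | h
    · rw [hPM y h]; exact h
    · rw [hPφ y h.1]; exact hφM y (Nr_mono (by omega) h.2) h.1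
    · rw [hPψ y h.1]; exact hψM y (Nr_mono (by omega) h.2) h.1
  have hcomp : ∀ j < K, ∀ y ∈ NN j, ∀ s ∈ S, P (s • P y) = P (s • y) := by
    intro j hj y hy s hs
    rcases hy with h | h | h
    · rw [hPM y h]
    · have hyW : y ∈ W := Nr_mono (by omega) h.2
      have hsyW : s • y ∈ W := Nr_mono (by omega) (Nr_step hs h.2)
      obtain ⟨e1, e2⟩ := hedge s hs y hyW hsyW (φ y) (hφ y hyW).1 (hφ y hyW).2
      rw [hPφ y h.1]
      by_cases ha : s • y ∈ F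
      · rw [hPφ _ ha]
        have e3 : s • φ y = φ (s • y) := hc' _ e1 _ (hφ _ hsyW).1 (e2.trans (hφ _ hsyW).2.symm)
        rw [e3]
        exact hPM _ (hφM _ hsyW ha)
      · rw [hPM (s • y) ⟨h1 hsyW, ha⟩]
        have e4 : s • φ y ∉ F' := fun h' => ha ((hmem _ hsyW _ e1 e2).mpr h')
        rw [hPψ _ e4]
        exact hc _ (hψ _ e1).1 _ hsyW ((hψ _ e1).2.trans e2)
    · have hyW : y ∈ W' := Nr_mono (by omega) h.2
      have hsyW : s • y ∈ W' := Nr_mono (by omega) (Nr_step hs h.2)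
      obtain ⟨e1, e2⟩ := hedge' s hs y hyW hsyW (ψ y) (hψ y hyW).1 (hψ y hyW).2
      rw [hPψ y h.1]
      by_cases ha : s • y ∈ F'
      · rw [hPM (s • y) ⟨ha, (h2 _ hsyW).1⟩]
        have e4 : s • ψ y ∈ F := (hmem _ e1 _ hsyW e2.symm).mpr ha
        rw [hPφ _ e4]
        exact hc' _ (hφ _ e1).1 _ hsyW ((hφ _ e1).2.trans e2)
      · rw [hPψ _ ha]
        have e3 : s • ψ y = ψ (s • y) := hc _ e1 _ (hψ _ hsyW).1 (e2.trans (hψ _ hsyW).2.symm)
        rw [e3]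
        exact hPM _ (hψM _ hsyW ha)
  have hmain := hRP M P NN (hF'fin.subset (fun y hy => hy.1)) (fun y hy => Or.inl hy) hNstep hPN
    hPM hcomp
  have hMfix : ∀ m ∈ M, ∀ s ∈ S, s • m = m := by
    intro m hm s hs
    have h3 := hmain m hm s hs
    by_cases ha : s • m ∈ F
    · exfalso
      have hb : s • m ∈ bd S F := hin F m s hs hm.2 ha
      have hmW : m ∈ W := by
        have := Nr_step (hsym s hs) (bd_sub (S := S) 0 hb)
        rw [inv_smul_smul] at this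
        exact Nr_mono (by omega) this
      rw [hPφ _ ha] at h3
      have h4 := (hφ _ (bd_sub (K + 1) hb)).1
      rw [h3] at h4
      exact (h2 m h4).2 hmW
    · by_cases hb : s • m ∈ F'
      · rwa [hPM _ ⟨hb, ha⟩] at h3
      · exfalso
        have hm' : m ∈ bd S F' := ⟨hm.1, s, hs, hb⟩
        rw [hPψ _ hb] at h3
        have h4 := (hψ _ (Nr_mono (by omega) (Nr_step hs (bd_sub (S := S) 0 hm')))).1
        rw [h3] at h4
        exact (h2 m (bd_sub _ hm')).2 h4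
  have hFinv : ∀ y ∈ F, ∀ s ∈ S, s • y ∈ F := by
    intro y hy s hs
    by_contra hsy
    have h3 : s • y ∈ Nr S F (K + 1) := Nr_mono (by omega) (Nr_step hs (bd_sub 0 ⟨hy, s, hs, hsy⟩))
    have h4 := hMfix (s • y) ⟨h1 h3, hsy⟩ s⁻¹ (hsym s hs)
    rw [inv_smul_smul] at h4
    rw [← h4] at hsy
    exact hsy hy
  intro y hy s hs
  exact hRP F id (fun _ => F) (hF'fin.subset hFF') subset_rfl (fun _ _ y hy s hs => hFinv y hy s hs)
    (fun _ _ y hy => hy) (fun _ _ => rfl) (fun _ _ _ _ _ _ => rfl) y hy s hs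

end Vale.Agent.P196
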