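import Vale.Agent.P196.Iso
import Vale.Agent.P196.Folner

namespace Vale.Agent.P196

open Function

/-- the points whose forward orbit under `σ` is injectively indexed -/
def apSub {G X : Type*} [Group G] [MulAction G X] (σ : X → X)
    (hdisp : ∀ g : G, ∃ D : ℕ, ∀ x : X, ∃ i ≤ D, ∃ j ≤ D, σ^[i] x = σ^[j] (g • x)) :
    SubMulAction G X where
  carrier := {x | ∀ m n : ℕ, σ^[m] x = σ^[n] x → m = n}
  smul_mem' := by
    intro g x hx m n h
    obtain ⟨D, hD⟩ := hdisp g
    obtain ⟨i, -, j, -, e⟩ := hD x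
    have h1 : σ^[j] (σ^[m] (g • x)) = σ^[j] (σ^[n] (g • x)) := by rw [h]
    rw [iter_add, iter_add, add_comm j m, add_comm j n, ← iter_add, ← iter_add, ← e, iter_add,
      iter_add] at h1
    have := hx _ _ h1
    omega

theorem aperiodic_fixed {G : Type*} [Group G] [Infinite G] [IsSimpleGroup G]
    [Group.IsFinitelyPresented G] (hG : Amenable G) {X : Type*} [MulAction G X] (σ : X → X)
    (d : ℕ) (hd : ∀ y, ∃ T : Finset X, T.card ≤ d ∧ ∀ x, σ x = y → x ∈ T)
    (hdisp : ∀ g : G, ∃ D : ℕ, ∀ x : X, ∃ i ≤ D, ∃ j ≤ D, σ^[i] x = σ^[j] (g • x))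
    (x : X) (hx : ∀ m n : ℕ, σ^[m] x = σ^[n] x → m = n) (g : G) : g • x = x := by
  classical
  obtain ⟨S, K, -, hS, hK, hret⟩ := retract G
  let Y := apSub σ hdisp
  have hσY : ∀ y : X, y ∈ Y → σ y ∈ Y := by
    intro y hy m n h
    rw [← iterate_succ_apply, ← iterate_succ_apply] at h
    have := hy _ _ h
    omega
  let τ : Y → Y := fun y => ⟨σ y.1, hσY y.1 y.2⟩
  have hτ : ∀ (n : ℕ) (y : Y), (τ^[n] y).1 = σ^[n] y.1 := by
    intro n
    induction n with
    | zero => intro y; rfl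
    | succ n ih => intro y; rw [iterate_succ_apply, iterate_succ_apply, ih]
  have hap : Aper τ := by
    intro y m n h
    apply y.2 m n
    rw [← hτ, ← hτ, h]
  have hdY : ∀ y : Y, ∃ T : Finset Y, T.card ≤ d ∧ ∀ z, τ z = y → z ∈ T := by
    intro y
    obtain ⟨T, hT, hT'⟩ := hd y.1
    refine ⟨T.subtype (fun z => z ∈ Y), ?_, ?_⟩
    · rw [Finset.card_subtype]
      exact (Finset.card_filter_le _ _).trans hT
    · intro z hz
      rw [Finset.mem_subtype]
      apply hT'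
      rw [← hz]
  obtain ⟨Dg, hDg⟩ := Classical.axiom_of_choice hdisp
  let D := S.sup Dg
  have hstep : ∀ s ∈ S, ∀ y : Y, ∃ i ≤ D, ∃ j ≤ D, τ^[i] y = τ^[j] (s • y) := by
    intro s hs y
    obtain ⟨i, hi, j, hj, e⟩ := hDg s y.1
    have hle : Dg s ≤ D := Finset.le_sup hs
    refine ⟨i, hi.trans hle, j, hj.trans hle, Subtype.ext ?_⟩
    rw [hτ, hτ]
    exact e
  have hRP : RP S K Y := fun M P N => hret Y M P N
  obtain ⟨N, code, hcode⟩ := exists_code hdY (D * (K + 2))
  obtain ⟨T, hT⟩ := pigeon (α := TypeData N (D * (K + 2)) S)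
  have hiso := iso hRP hK hap hdY hstep le_rfl hcode hT rfl rfl
  by_contra hne
  let x₀ : Y := ⟨x, hx⟩
  have hmove : ∀ h : G, ∃ s ∈ S, s • (h • x₀) ≠ h • x₀ := by
    intro h
    by_contra hcon
    push Not at hcon
    have hle : Subgroup.closure (S : Set G) ≤ MulAction.stabilizer G (h • x₀) := by
      rw [Subgroup.closure_le]
      intro s hs
      exact hcon s hs
    rw [hS] at hle
    have h1 : (h * g * h⁻¹) • (h • x₀) = h • x₀ := hle (Subgroup.mem_top _)
    rw [smul_smul, inv_mul_cancel_right, mul_smul] at h1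
    have h2 := MulAction.injective h h1
    exact hne (congrArg Subtype.val h2)
  obtain ⟨c, hc⟩ : ∃ c : ℕ, ∀ (k : ℕ) (B F : Finset Y), B.card ≤ k →
      Good τ S D (B : Set Y) (F : Set Y) → NF S (F : Set Y) → F.card ≤ c * k := ⟨_, hiso⟩
  clear hiso
  refine folner_false hG x₀ S c (fun F B hF hB => hc _ B F le_rfl ?_ ?_)
  · intro y hy s hs hsy
    exact ⟨y, hB y hy s hs hsy, 0, Nat.zero_le _, 0, Nat.zero_le _, rfl⟩
  · intro y hy
    obtain ⟨h, rfl⟩ := hF y (Finset.mem_coe.mp hy)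
    exact hmove h

end Vale.Agent.P196
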