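import Vale.Agent.P196.Retract

namespace Vale.Agent.P196

open Function

variable {G X : Type*} [Group G] [MulAction G X]

def Near (σ : X → X) (R : ℕ) (u y : X) : Prop := ∃ i ≤ R, ∃ j ≤ R, σ^[i] y = σ^[j] u

def Below (σ : X → X) (u y : X) : Prop := ∃ n, σ^[n] y = u

def Aper (σ : X → X) : Prop := ∀ (x : X) (m n : ℕ), σ^[m] x = σ^[n] x → m = n

theorem Near.mono {σ : X → X} {R R' : ℕ} (h : R ≤ R') {u y : X} (hn : Near σ R u y) :
    Near σ R' u y := by
  obtain ⟨i, hi, j, hj, e⟩ := hn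
  exact ⟨i, hi.trans h, j, hj.trans h, e⟩

theorem iter_add (σ : X → X) (m n : ℕ) (x : X) : σ^[m] (σ^[n] x) = σ^[m + n] x :=
  (iterate_add_apply σ m n x).symm

theorem Near.step {σ : X → X} {R D : ℕ} {u y y' : X} (hn : Near σ R u y)
    (hd : ∃ i ≤ D, ∃ j ≤ D, σ^[i] y = σ^[j] y') : Near σ (R + D) u y' := by
  obtain ⟨i, hi, j, hj, e⟩ := hn
  obtain ⟨a, ha, b, hb, e'⟩ := hd
  refine ⟨i + b, by omega, a + j, by omega, ?_⟩
  rw [← iter_add, ← e', iter_add, ← iter_add σ a j, ← e, iter_add, add_comm]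

theorem cross {σ : X → X} {D : ℕ} {u y y' : X}
    (hd : ∃ i ≤ D, ∃ j ≤ D, σ^[i] y = σ^[j] y') (hy : Below σ u y) (hy' : ¬ Below σ u y') :
    Near σ D u y ∧ Near σ D u y' := by
  obtain ⟨n, hn⟩ := hy
  obtain ⟨a, ha, b, hb, e⟩ := hd
  have hna : n < a := by
    by_contra hcon
    push Not at hcon
    apply hy'
    refine ⟨n - a + b, ?_⟩
    rw [← iter_add, ← e, iter_add, Nat.sub_add_cancel hcon, hn]
  refine ⟨⟨n, by omega, 0, by omega, by simpa using hn⟩, ⟨b, hb, a - n, by omega, ?_⟩⟩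
  rw [← e, ← hn, iter_add, Nat.sub_add_cancel hna.le]

theorem Near.below {σ : X → X} {R q : ℕ} {u y : X} (hn : Near σ R u y) (hq : R ≤ q) :
    Below σ (σ^[q] u) y := by
  obtain ⟨i, hi, j, hj, e⟩ := hn
  refine ⟨q - j + i, ?_⟩
  rw [← iter_add, e, iter_add, Nat.sub_add_cancel (hj.trans hq)]

theorem Below.up {σ : X → X} {u y : X} (h : Below σ u y) (q : ℕ) : Below σ (σ^[q] u) y := by
  obtain ⟨n, hn⟩ := h
  exact ⟨q + n, by rw [← iter_add, hn]⟩

theorem not_below_of_near {σ : X → X} (hap : Aper σ) {R q : ℕ} {u y : X}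
    (hn : Near σ R (σ^[q] u) y) (hq : R < q) : ¬ Below σ u y := by
  rintro ⟨n, hn'⟩
  obtain ⟨i, hi, j, hj, e⟩ := hn
  rw [← hn', iter_add, iter_add] at e
  have := hap y _ _ e
  omega

theorem not_near_both {σ : X → X} (hap : Aper σ) {R q : ℕ} {u y : X}
    (h1 : Near σ R u y) (h2 : Near σ R (σ^[q] u) y) (hq : 2 * R < q) : False := by
  obtain ⟨i, hi, j, hj, e⟩ := h1
  obtain ⟨i', hi', j', hj', e'⟩ := h2
  have h3 : σ^[i' + j] u = σ^[i + (j' + q)] u := by
    rw [← iter_add, ← e, iter_add, add_comm i' i, ← iter_add, e', iter_add, iter_add, add_assoc]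
  have := hap u _ _ h3
  omega

structure TypeData (N R : ℕ) (S : Finset G) where
  A : Set (Fin N × Fin (R + 1) × Fin (R + 1))
  F : Set (Fin N)
  E : S → Set (Fin N × Fin N)

def typeEquiv (N R : ℕ) (S : Finset G) : TypeData N R S ≃
    (Set (Fin N × Fin (R + 1) × Fin (R + 1)) × Set (Fin N) × (S → Set (Fin N × Fin N))) where
  toFun t := (t.A, t.F, t.E)
  invFun t := ⟨t.1, t.2.1, t.2.2⟩
  left_inv _ := rfl
  right_inv _ := rfl

instance (N R : ℕ) (S : Finset G) : Finite (TypeData N R S) :=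
  Finite.of_equiv _ (typeEquiv N R S).symm

def typ (σ : X → X) (N R : ℕ) (S : Finset G) (F : Set X) (code : X → X → Fin N) (u : X) :
    TypeData N R S where
  A := {c | ∃ y, Near σ R u y ∧ code u y = c.1 ∧ σ^[c.2.1.1] y = σ^[c.2.2.1] u}
  F := {c | ∃ y, Near σ R u y ∧ code u y = c ∧ y ∈ F}
  E := fun s => {c | ∃ y, Near σ R u y ∧ Near σ R u (s.1 • y) ∧ code u y = c.1 ∧
    code u (s.1 • y) = c.2}

/-- matching relation between windows -/
def Mat {N : ℕ} (σ : X → X) (R : ℕ) (code : X → X → Fin N) (u u' y y' : X) : Prop :=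
  Near σ R u y ∧ Near σ R u' y' ∧ code u y = code u' y'

section

variable {σ : X → X} {N R : ℕ} {S : Finset G} {F : Set X} {code : X → X → Fin N} {u u' : X}

theorem Mat.symm {y y' : X} (h : Mat σ R code u u' y y') : Mat σ R code u' u y' y :=
  ⟨h.2.1, h.1, h.2.2.symm⟩

theorem exists_mat (ht : typ (G := G) σ N R S F code u = typ σ N R S F code u') {y : X}
    (hy : Near σ R u y) : ∃ y', Mat σ R code u u' y y' := by
  obtain ⟨i, hi, j, hj, e⟩ := hy
  have h1 : (code u y, (⟨i, by omega⟩ : Fin (R + 1)), (⟨j, by omega⟩ : Fin (R + 1))) ∈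
      (typ (G := G) σ N R S F code u).A := ⟨y, ⟨i, hi, j, hj, e⟩, rfl, e⟩
  rw [ht] at h1
  obtain ⟨y', h2, h3, h4⟩ := h1
  exact ⟨y', ⟨i, hi, j, hj, e⟩, h2, h3.symm⟩

theorem mat_unique (hcode : ∀ u y y', Near σ R u y → Near σ R u y' → code u y = code u y' →
    y = y') {y y' y'' : X} (h : Mat σ R code u u' y y') (h' : Mat σ R code u u' y y'') :
    y' = y'' :=
  hcode u' _ _ h.2.1 h'.2.1 (h.2.2.symm.trans h'.2.2)

theorem mat_iter (ht : typ (G := G) σ N R S F code u = typ σ N R S F code u')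
    (hcode : ∀ u y y', Near σ R u y → Near σ R u y' → code u y = code u y' → y = y')
    {y y' : X} (h : Mat σ R code u u' y y') {i j : ℕ} (hi : i ≤ R) (hj : j ≤ R)
    (e : σ^[i] y = σ^[j] u) : σ^[i] y' = σ^[j] u' := by
  have h1 : (code u y, (⟨i, by omega⟩ : Fin (R + 1)), (⟨j, by omega⟩ : Fin (R + 1))) ∈
      (typ (G := G) σ N R S F code u).A := ⟨y, ⟨i, hi, j, hj, e⟩, rfl, e⟩
  rw [ht] at h1
  obtain ⟨y'', h2, h3, h4⟩ := h1
  have : y'' = y' := hcode u' _ _ h2 h.2.1 (h3.trans h.2.2)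
  rw [this] at h4
  exact h4

theorem mat_mem (ht : typ (G := G) σ N R S F code u = typ σ N R S F code u')
    (hcode : ∀ u y y', Near σ R u y → Near σ R u y' → code u y = code u y' → y = y')
    {y y' : X} (h : Mat σ R code u u' y y') (hy : y ∈ F) : y' ∈ F := by
  have h1 : code u y ∈ (typ (G := G) σ N R S F code u).F := ⟨y, h.1, rfl, hy⟩
  rw [ht] at h1
  obtain ⟨y'', h2, h3, h4⟩ := h1
  have : y'' = y' := hcode u' _ _ h2 h.2.1 (h3.trans h.2.2)
  rwa [this] at h4

theorem mat_smul (ht : typ (G := G) σ N R S F code u = typ σ N R S F code u')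
    (hcode : ∀ u y y', Near σ R u y → Near σ R u y' → code u y = code u y' → y = y')
    {y y' : X} (h : Mat σ R code u u' y y') {s : G} (hs : s ∈ S) (hsy : Near σ R u (s • y)) :
    Mat σ R code u u' (s • y) (s • y') := by
  have h1 : (code u y, code u (s • y)) ∈ (typ (G := G) σ N R S F code u).E ⟨s, hs⟩ :=
    ⟨y, h.1, hsy, rfl, rfl⟩
  rw [ht] at h1
  obtain ⟨y'', h2, h3, h4, h5⟩ := h1
  have : y'' = y' := hcode u' _ _ h2 h.2.1 (h4.trans h.2.2)
  subst this
  exact ⟨hsy, h3, h5.symm⟩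

/-- `y` in the window is below `u` iff it is so at distance `≤ R` -/
theorem mat_below (hap : Aper σ)
    (ht : typ (G := G) σ N R S F code u = typ σ N R S F code u')
    (hcode : ∀ u y y', Near σ R u y → Near σ R u y' → code u y = code u y' → y = y')
    {y y' : X} (h : Mat σ R code u u' y y') (hy : Below σ u y) : Below σ u' y' := by
  obtain ⟨n, hn⟩ := hy
  obtain ⟨i, hi, j, hj, e⟩ := h.1
  have hnR : n ≤ R := by
    rw [← hn, iter_add] at e
    have := hap y _ _ e
    omega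
  exact ⟨n, by simpa using mat_iter ht hcode h hnR (Nat.zero_le R) (by simpa using hn)⟩

end

def RP (S : Finset G) (K : ℕ) (Y : Type*) [MulAction G Y] : Prop :=
  ∀ (M : Set Y) (P : Y → Y) (N : ℕ → Set Y), M.Finite →
    M ⊆ N 0 → (∀ j < K, ∀ y ∈ N j, ∀ s ∈ S, s • y ∈ N (j + 1)) →
    (∀ j ≤ K, ∀ y ∈ N j, P y ∈ M) → (∀ m ∈ M, P m = m) →
    (∀ j < K, ∀ y ∈ N j, ∀ s ∈ S, P (s • P y) = P (s • y)) →
    ∀ m ∈ M, ∀ s ∈ S, P (s • m) = m

theorem glue {σ : X → X} {N R K D q : ℕ} {S : Finset G} {F : Set X} {code : X → X → Fin N}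
    {u u' : X} (hRP : RP S K X) (hK : 1 ≤ K) (hap : Aper σ)
    (hstep : ∀ s ∈ S, ∀ y : X, ∃ i ≤ D, ∃ j ≤ D, σ^[i] y = σ^[j] (s • y))
    (hR : D * (K + 2) ≤ R) (hq : 2 * R < q) (hu' : u' = σ^[q] u)
    (ht : typ (G := G) σ N R S F code u = typ σ N R S F code u')
    (hcode : ∀ u y y', Near σ R u y → Near σ R u y' → code u y = code u y' → y = y')
    (hF : F.Finite)
    (hreg : ∀ y ∈ F, (Below σ u' y ∧ ¬ Below σ u y) ∨ Near σ R u y ∨ Near σ R u' y →
      ∀ s ∈ S, s • y ∈ F)
    (hnf : ∀ y ∈ F, ∃ s ∈ S, s • y ≠ y) :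
    ∀ y ∈ F, Below σ u' y → Below σ u y := by
  classical
  by_contra hcon
  push Not at hcon
  obtain ⟨m₀, hm₀F, hm₀u', hm₀u⟩ := hcon
  let M : Set X := {y | y ∈ F ∧ Below σ u' y ∧ ¬ Below σ u y}
  let φ : X → X := fun y => if h : ∃ y', Mat σ R code u u' y y' then h.choose else y
  let ψ : X → X := fun y => if h : ∃ y', Mat σ R code u' u y y' then h.choose else y
  let P : X → X := fun y => if y ∈ M then y else if Below σ u y then φ y else ψ y
  let NN : ℕ → Set X := fun j => {y | y ∈ F ∧ (y ∈ M ∨ (Below σ u y ∧ Near σ (D * (j + 1)) u y) ∨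
    (¬ Below σ u' y ∧ Near σ (D * (j + 1)) u' y))}
  have hφ : ∀ y, Near σ R u y → Mat σ R code u u' y (φ y) := by
    intro y hy
    have h := exists_mat ht hy
    simp only [φ]
    rw [dif_pos h]
    exact h.choose_spec
  have hψ : ∀ y, Near σ R u' y → Mat σ R code u' u y (ψ y) := by
    intro y hy
    have h := exists_mat ht.symm hy
    simp only [ψ]
    rw [dif_pos h]
    exact h.choose_spec
  have hbelow : ∀ y, Below σ u y → Below σ u' y := fun y hy => by rw [hu']; exact hy.up q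
  have hDj : ∀ j, j ≤ K + 1 → D * (j + 1) ≤ R := fun j hj =>
    (Nat.mul_le_mul_left D (by omega)).trans hR
  have hstep' : ∀ s ∈ S, ∀ y : X, ∃ i ≤ D, ∃ j ≤ D, σ^[i] (s • y) = σ^[j] y := by
    intro s hs y
    obtain ⟨i, hi, j, hj, e⟩ := hstep s hs y
    exact ⟨j, hj, i, hi, e.symm⟩
  have hnear : ∀ (v y : X) (s : G), s ∈ S → ∀ j, Near σ (D * (j + 1)) v y →
      Near σ (D * (j + 1 + 1)) v (s • y) := by
    intro v y s hs j hy
    have := hy.step (hstep s hs y)
    refine this.mono (le_of_eq ?_)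
    ring
  have hφM : ∀ y ∈ F, Below σ u y → Near σ R u y → φ y ∈ M := by
    intro y hy hb hn
    have h := hφ y hn
    refine ⟨mat_mem ht hcode h hy, mat_below hap ht hcode h hb, ?_⟩
    have h2 := h.2.1
    rw [hu'] at h2
    exact not_below_of_near hap h2 (by omega)
  have hψM : ∀ y ∈ F, ¬ Below σ u' y → Near σ R u' y → ψ y ∈ M := by
    intro y hy hb hn
    have h := hψ y hn
    refine ⟨mat_mem ht.symm hcode h hy, ?_, ?_⟩
    · rw [hu']; exact h.2.1.below (by omega)
    · intro h2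
      exact hb (mat_below hap ht hcode h.symm h2)
  have hPM : ∀ y ∈ M, P y = y := by
    intro y hy
    simp only [P]
    rw [if_pos hy]
  have hPφ : ∀ y, Below σ u y → P y = φ y := by
    intro y hy
    simp only [P]
    rw [if_neg (fun h => h.2.2 hy), if_pos hy]
  have hPψ : ∀ y, ¬ Below σ u' y → P y = ψ y := by
    intro y hy
    simp only [P]
    rw [if_neg (fun h => hy h.2.1), if_neg (fun h => hy (hbelow y h))]
  have hNstep : ∀ j < K, ∀ y ∈ NN j, ∀ s ∈ S, s • y ∈ NN (j + 1) := by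
    intro j hj y hy s hs
    obtain ⟨hyF, hy⟩ := hy
    have hregy : ∀ s ∈ S, s • y ∈ F := by
      apply hreg y hyF
      rcases hy with h | h | h
      · exact Or.inl ⟨h.2.1, h.2.2⟩
      · exact Or.inr (Or.inl (h.2.mono (hDj j (by omega))))
      · exact Or.inr (Or.inr (h.2.mono (hDj j (by omega))))
    have hsF := hregy s hs
    refine ⟨hsF, ?_⟩
    by_cases hb : Below σ u (s • y)
    · right; left
      refine ⟨hb, ?_⟩
      rcases hy with h | h | h
      · have := (cross (hstep' s hs y) hb h.2.2).1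
        refine this.mono ?_
        calc D = D * 1 := (Nat.mul_one D).symm
          _ ≤ D * (j + 1 + 1) := Nat.mul_le_mul_left D (by omega)
      · exact hnear u y s hs j h.2
      · exfalso
        have h1 := (hnear u' y s hs j h.2).mono (hDj (j + 1) (by omega))
        rw [hu'] at h1
        exact not_below_of_near hap h1 (by omega) hb
    · by_cases hb' : Below σ u' (s • y)
      · left
        exact ⟨hsF, hb', hb⟩
      · right; right
        refine ⟨hb', ?_⟩
        rcases hy with h | h | h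
        · have := (cross (hstep s hs y) h.2.1 hb').2
          refine this.mono ?_
          calc D = D * 1 := (Nat.mul_one D).symm
            _ ≤ D * (j + 1 + 1) := Nat.mul_le_mul_left D (by omega)
        · exfalso
          apply hb'
          have h1 := (hnear u y s hs j h.2).mono (hDj (j + 1) (by omega))
          rw [hu']
          exact h1.below (by omega)
        · exact hnear u' y s hs j h.2
  have hPN : ∀ j ≤ K, ∀ y ∈ NN j, P y ∈ M := by
    intro j hj y hy
    obtain ⟨hyF, h | h | h⟩ := hy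
    · rw [hPM y h]; exact h
    · rw [hPφ y h.1]; exact hφM y hyF h.1 (h.2.mono (hDj j (by omega)))
    · rw [hPψ y h.1]; exact hψM y hyF h.1 (h.2.mono (hDj j (by omega)))
  have hcomp : ∀ j < K, ∀ y ∈ NN j, ∀ s ∈ S, P (s • P y) = P (s • y) := by
    intro j hj y hy s hs
    have hsN := hNstep j hj y hy s hs
    obtain ⟨hyF, h | h | h⟩ := hy
    · rw [hPM y h]
    · rw [hPφ y h.1]
      have hny := h.2.mono (hDj j (by omega))
      have hnsy := (hnear u y s hs j h.2).mono (hDj (j + 1) (by omega))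
      have hm1 := hφ y hny
      have hm2 := mat_smul ht hcode hm1 hs hnsy
      by_cases hb : Below σ u (s • y)
      · rw [hPφ _ hb]
        have h3 : s • φ y = φ (s • y) := mat_unique hcode hm2 (hφ _ hnsy)
        rw [h3]
        exact hPM _ (hφM _ hsN.1 hb hnsy)
      · have hb' : Below σ u' (s • y) := by rw [hu']; exact hnsy.below (by omega)
        have hsM : s • y ∈ M := ⟨hsN.1, hb', hb⟩
        rw [hPM _ hsM]
        have h4 : ¬ Below σ u' (s • φ y) := by
          intro h5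
          exact hb (mat_below hap ht.symm hcode hm2.symm h5)
        rw [hPψ _ h4]
        exact mat_unique hcode (hψ _ hm2.2.1) hm2.symm
    · rw [hPψ y h.1]
      have hny := h.2.mono (hDj j (by omega))
      have hnsy := (hnear u' y s hs j h.2).mono (hDj (j + 1) (by omega))
      have hm1 := hψ y hny
      have hm2 := mat_smul ht.symm hcode hm1 hs hnsy
      by_cases hb : Below σ u' (s • y)
      · have hb' : ¬ Below σ u (s • y) := by
          have := hnsy
          rw [hu'] at this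
          exact not_below_of_near hap this (by omega)
        have hsM : s • y ∈ M := ⟨hsN.1, hb, hb'⟩
        rw [hPM _ hsM]
        have h4 : Below σ u (s • ψ y) := mat_below hap ht.symm hcode hm2 hb
        rw [hPφ _ h4]
        exact mat_unique hcode (hφ _ hm2.2.1) hm2.symm
      · rw [hPψ _ hb]
        have h3 : s • ψ y = ψ (s • y) := mat_unique hcode hm2 (hψ _ hnsy)
        rw [h3]
        exact hPM _ (hψM _ hsN.1 hb hnsy)
  have hM0 : M ⊆ NN 0 := fun y hy => ⟨hy.1, Or.inl hy⟩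
  have hmain := hRP M P NN (hF.subset (fun y hy => hy.1)) hM0 hNstep hPN hPM hcomp
  have hm₀ : m₀ ∈ M := ⟨hm₀F, hm₀u', hm₀u⟩
  obtain ⟨s, hs, hne⟩ := hnf m₀ hm₀F
  have h1 := hmain m₀ hm₀ s hs
  have hsN := hNstep 0 (by omega) m₀ (hM0 hm₀) s hs
  obtain ⟨hsF, h | h | h⟩ := hsN
  · rw [hPM _ h] at h1
    exact hne h1
  · rw [hPφ _ h.1] at h1
    have hn : Near σ R u (s • m₀) := h.2.mono (hDj 1 (by omega))
    have hm2 := hφ _ hn
    rw [h1] at hm2
    have hn1 : Near σ R u m₀ := ((cross (hstep' s hs m₀) h.1 hm₀u).2).mono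
      (by have := hDj 0 (by omega); simpa using this)
    have hn2 := hm2.2.1
    rw [hu'] at hn2
    exact not_near_both hap hn1 hn2 hq
  · rw [hPψ _ h.1] at h1
    have hn : Near σ R u' (s • m₀) := h.2.mono (hDj 1 (by omega))
    have hm2 := hψ _ hn
    rw [h1] at hm2
    have hn1 : Near σ R u' m₀ := ((cross (hstep s hs m₀) hm₀u' h.1).1).mono
      (by have := hDj 0 (by omega); simpa using this)
    rw [hu'] at hn1
    exact not_near_both hap hm2.2.1 hn1 hq

end Vale.Agent.P196
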