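import Vale.Agent.P196.T2

namespace Vale.Agent.P196

open Function

def shift {d : ℕ} (x : ℕ → Fin d) : ℕ → Fin d := fun n => x (n + 1)

theorem shift_iter {d : ℕ} (m : ℕ) (x : ℕ → Fin d) (n : ℕ) : shift^[m] x n = x (n + m) := by
  induction m generalizing x with
  | zero => rfl
  | succ m ih =>
    rw [iterate_succ_apply, ih]
    rfl

theorem shift_fibre {d : ℕ} (y : ℕ → Fin d) : (shift ⁻¹' {y}).encard ≤ d := by
  have h1 : (shift ⁻¹' {y}).encard ≤ (Set.univ : Set (Fin d)).encard := by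
    refine Set.encard_le_encard_of_injOn (f := fun x : ℕ → Fin d => x 0) (fun _ _ => Set.mem_univ _)
      ?_
    intro a ha b hb hab
    funext n
    cases n with
    | zero => exact hab
    | succ n => exact (congrFun ha n).trans (congrFun hb n).symm
  refine h1.trans ?_
  rw [Set.encard_univ]
  simp

theorem prefix_bound {d : ℕ} {f : (ℕ → Fin d) → (ℕ → Fin d)} (hf : PrefixReplacement f) :
    ∃ D : ℕ, ∀ x, ∃ i ≤ D, ∃ j ≤ D, shift^[i] x = shift^[j] (f x) := by
  choose I J hIJ using hf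
  have hU : ∀ x ∈ (Set.univ : Set (ℕ → Fin d)), {y : ℕ → Fin d | ∀ t < I x, y t = x t} ∈ nhds x := by
    intro x _
    have h1 : {y : ℕ → Fin d | ∀ t < I x, y t = x t} =
        ⋂ t ∈ Set.Iio (I x), {y : ℕ → Fin d | y t = x t} := by
      ext y
      simp
    rw [h1]
    refine (Filter.biInter_mem (Set.finite_Iio (I x))).mpr (fun t _ => ?_)
    refine IsOpen.mem_nhds ?_ rfl
    have h2 : {y : ℕ → Fin d | y t = x t} = (fun y : ℕ → Fin d => y t) ⁻¹' {x t} := rfl
    rw [h2]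
    exact (isOpen_discrete ({x t} : Set (Fin d))).preimage
      (continuous_apply (A := fun _ : ℕ => Fin d) t)
  obtain ⟨s, -, hs⟩ := isCompact_univ.elim_nhds_subcover (fun x : ℕ → Fin d =>
    {y : ℕ → Fin d | ∀ t < I x, y t = x t}) hU
  refine ⟨s.sup (fun x => I x + J x), fun x => ?_⟩
  have hx := hs (Set.mem_univ x)
  rw [Set.mem_iUnion₂] at hx
  obtain ⟨z, hz, hxz⟩ := hx
  have h1 : I z + J z ≤ s.sup (fun x => I x + J x) :=
    Finset.le_sup (f := fun x : ℕ → Fin d => I x + J x) hz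
  refine ⟨I z, by omega, J z, by omega, ?_⟩
  funext n
  rw [shift_iter, shift_iter, add_comm n (J z), (hIJ z x hxz).2 n, add_comm]

theorem exists_aper {d : ℕ} (hd : 2 ≤ d) (x : ℕ → Fin d) (N : ℕ) :
    ∃ y : ℕ → Fin d, (∀ t < N, y t = x t) ∧ ∀ m n : ℕ, shift^[m] y = shift^[n] y → m = n := by
  classical
  let a0 : Fin d := ⟨0, by omega⟩
  let a1 : Fin d := ⟨1, by omega⟩
  have h01 : a0 ≠ a1 := by
    intro h
    simp [a0, a1, Fin.ext_iff] at h
  let y : ℕ → Fin d := fun t => if t < N then x t else if ∃ j : ℕ, t = 2 ^ j then a1 else a0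
  have hy1 : ∀ t, N ≤ t → (∃ j : ℕ, t = 2 ^ j) → y t = a1 := by
    intro t ht h
    simp only [y]
    rw [if_neg (by omega), if_pos h]
  have hy0 : ∀ t, N ≤ t → (¬ ∃ j : ℕ, t = 2 ^ j) → y t = a0 := by
    intro t ht h
    simp only [y]
    rw [if_neg (by omega), if_neg h]
  refine ⟨y, fun t ht => if_pos ht, ?_⟩
  have key : ∀ m p : ℕ, 0 < p → shift^[m] y = shift^[m + p] y → False := by
    intro m p hp h
    -- choose a large power of two
    obtain ⟨j, hj⟩ : ∃ j : ℕ, N + m + p < 2 ^ j := ⟨N + m + p, Nat.lt_two_pow_self⟩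
    have h1 := congrFun h (2 ^ j - m)
    rw [shift_iter, shift_iter, Nat.sub_add_cancel (by omega)] at h1
    have h2 : 2 ^ j - m + (m + p) = 2 ^ j + p := by omega
    rw [h2, hy1 (2 ^ j) (by omega) ⟨j, rfl⟩] at h1
    rw [hy0 (2 ^ j + p) (by omega)] at h1
    · exact h01 h1.symm
    · rintro ⟨k, hk⟩
      have h3 : 2 ^ j < 2 ^ k := by omega
      have h4 : j < k := (Nat.pow_lt_pow_iff_right (by norm_num)).mp h3
      have h5 : 2 ^ (j + 1) ≤ 2 ^ k := Nat.pow_le_pow_right (by norm_num) h4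
      have h6 : 2 ^ (j + 1) = 2 * 2 ^ j := by ring
      omega
  intro m n h
  rcases lt_trichotomy m n with hlt | heq | hgt
  · obtain ⟨p, rfl⟩ := Nat.exists_eq_add_of_le hlt.le
    exact (key m p (by omega) h).elim
  · exact heq
  · obtain ⟨p, rfl⟩ := Nat.exists_eq_add_of_le hgt.le
    exact (key n p (by omega) h.symm).elim

theorem encard_finset {X : Type*} {s : Set X} {d : ℕ} (h : s.encard ≤ d) :
    ∃ T : Finset X, T.card ≤ d ∧ ∀ x ∈ s, x ∈ T := by
  have hfin : s.Finite := Set.finite_of_encard_le_coe h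
  refine ⟨hfin.toFinset, ?_, fun x hx => hfin.mem_toFinset.mpr hx⟩
  rw [hfin.encard_eq_coe_toFinset_card] at h
  exact_mod_cast h

theorem thompson_trivial {G : Type*} [Group G] [Infinite G] [IsSimpleGroup G]
    [Group.IsFinitelyPresented G] (hG : Amenable G) (d : ℕ) (ρ : G →* Equiv.Perm (ℕ → Fin d))
    (hρ : ∀ g, PrefixReplacement (ρ g)) (g : G) (x : ℕ → Fin d) : ρ g x = x := by
  rcases Nat.lt_or_ge d 2 with hd | hd
  · have : Subsingleton (Fin d) := by
      rw [Fin.subsingleton_iff_le_one]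
      omega
    exact Subsingleton.elim _ _
  let _ : MulAction G (ℕ → Fin d) := MulAction.compHom (ℕ → Fin d) ρ
  have hfix : ∀ y : ℕ → Fin d, (∀ m n : ℕ, shift^[m] y = shift^[n] y → m = n) → ρ g y = y := by
    intro y hy
    exact aperiodic_fixed hG shift d (fun z => encard_finset (shift_fibre z))
      (fun h => prefix_bound (hρ h)) y hy g
  funext n
  obtain ⟨i, j, hij⟩ := hρ g x
  obtain ⟨y, hy1, hy2⟩ := exists_aper hd x (i + n + 1)
  have hy3 := hfix y hy2
  obtain ⟨h1, h2⟩ := hij y (fun t ht => hy1 t (by omega))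
  obtain ⟨-, h3⟩ := hij x (fun t _ => rfl)
  by_cases hn : n < j
  · rw [← h1 n hn, hy3, hy1 n (by omega)]
  · obtain ⟨t, rfl⟩ := Nat.exists_eq_add_of_le (not_lt.mp hn)
    rw [h3 t, ← hy1 (i + t) (by omega), ← h2 t, hy3, hy1 (j + t) (by omega)]

end Vale.Agent.P196
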