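import Vale.Agent.P196.Tree

namespace Vale.Agent.P196

open Function

theorem exists_pre {X : Type*} {σ : X → X} {d : ℕ}
    (hd : ∀ y, ∃ T : Finset X, T.card ≤ d ∧ ∀ x, σ x = y → x ∈ T) (i : ℕ) (y : X) :
    ∃ T : Finset X, T.card ≤ d ^ i ∧ ∀ x, σ^[i] x = y → x ∈ T := by
  classical
  induction i generalizing y with
  | zero => exact ⟨{y}, by simp, fun x hx => by simpa using hx⟩
  | succ i ih =>
    obtain ⟨T, hT, hT'⟩ := ih y
    choose U hU hU' using hd
    refine ⟨T.biUnion U, ?_, ?_⟩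
    · calc (T.biUnion U).card ≤ T.card * d := Finset.card_biUnion_le_card_mul _ _ _ (fun z _ => hU z)
        _ ≤ d ^ i * d := Nat.mul_le_mul_right d hT
        _ = d ^ (i + 1) := (pow_succ d i).symm
    · intro x hx
      rw [iterate_succ_apply] at hx
      exact Finset.mem_biUnion.mpr ⟨σ x, hT' _ hx, hU' _ _ rfl⟩

theorem exists_depth {X : Type*} {σ : X → X} {d : ℕ}
    (hd : ∀ y, ∃ T : Finset X, T.card ≤ d ∧ ∀ x, σ x = y → x ∈ T) (L : ℕ) (y : X) :
    ∃ T : Finset X, T.card ≤ (L + 1) * (d + 1) ^ L ∧ ∀ x, ∀ n ≤ L, σ^[n] x = y → x ∈ T := by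
  classical
  choose U hU hU' using fun i => exists_pre hd i y
  refine ⟨(Finset.range (L + 1)).biUnion U, ?_, ?_⟩
  · refine (Finset.card_biUnion_le_card_mul _ _ ((d + 1) ^ L) ?_).trans ?_
    · intro i hi
      have hi' : i ≤ L := Nat.lt_succ_iff.mp (Finset.mem_range.mp hi)
      exact (hU i).trans ((Nat.pow_le_pow_left (Nat.le_succ d) i).trans
        (Nat.pow_le_pow_right (Nat.succ_pos d) hi'))
    · rw [Finset.card_range]
  · intro x n hn hx
    exact Finset.mem_biUnion.mpr ⟨n, Finset.mem_range.mpr (by omega), hU' n x hx⟩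

theorem exists_window {X : Type*} {σ : X → X} {d : ℕ}
    (hd : ∀ y, ∃ T : Finset X, T.card ≤ d ∧ ∀ x, σ x = y → x ∈ T) (R : ℕ) (u : X) :
    ∃ T : Finset X, T.card ≤ (R + 1) * ((R + 1) * (d + 1) ^ R) ∧ ∀ x, Near σ R u x → x ∈ T := by
  classical
  choose U hU hU' using fun j => exists_depth hd R (σ^[j] u)
  refine ⟨(Finset.range (R + 1)).biUnion U, ?_, ?_⟩
  · refine (Finset.card_biUnion_le_card_mul _ _ ((R + 1) * (d + 1) ^ R) ?_).trans ?_
    · intro i _
      exact hU i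
    · rw [Finset.card_range]
  · rintro x ⟨i, hi, j, hj, e⟩
    exact Finset.mem_biUnion.mpr ⟨j, Finset.mem_range.mpr (by omega), hU' j x i hi e⟩

theorem exists_code {X : Type*} {σ : X → X} {d : ℕ}
    (hd : ∀ y, ∃ T : Finset X, T.card ≤ d ∧ ∀ x, σ x = y → x ∈ T) (R : ℕ) :
    ∃ (N : ℕ) (code : X → X → Fin N), ∀ u y y', Near σ R u y → Near σ R u y' →
      code u y = code u y' → y = y' := by
  classical
  set C := (R + 1) * ((R + 1) * (d + 1) ^ R)
  choose T hT hT' using fun u => exists_window hd R u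
  refine ⟨C + 1, fun u y => if h : y ∈ T u then
    ⟨((T u).equivFin ⟨y, h⟩).1, by
      have := ((T u).equivFin ⟨y, h⟩).2
      have := hT u
      omega⟩ else 0, ?_⟩
  intro u y y' hy hy' h
  have h1 := hT' u y hy
  have h2 := hT' u y' hy'
  simp only [dif_pos h1, dif_pos h2, Fin.mk.injEq] at h
  have h3 := (T u).equivFin.injective (Fin.ext h)
  exact congrArg Subtype.val h3

theorem pigeon {α : Type*} [Finite α] : ∃ T : ℕ, ∀ f : ℕ → α, ∃ i j, i < j ∧ j ≤ T ∧ f i = f j := by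
  classical
  have := Fintype.ofFinite α
  refine ⟨Fintype.card α, fun f => ?_⟩
  obtain ⟨i, hi, j, hj, hne, h⟩ := Finset.exists_ne_map_eq_of_card_lt_of_maps_to
    (s := Finset.range (Fintype.card α + 1)) (t := (Finset.univ : Finset α)) (f := f)
    (by simp) (fun _ _ => Finset.mem_univ _)
  rw [Finset.mem_range] at hi hj
  rcases lt_or_gt_of_ne hne with h' | h'
  · exact ⟨i, j, h', by omega, h⟩
  · exact ⟨j, i, h', by omega, h.symm⟩

end Vale.Agent.P196
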